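import Mathlib

/-!
# Two-jets of real functions of one real variable

A small calculus of second-order jets, used to compute the infinity Laplacian of the
barrier functions `‖x‖ ^ k * p (angle x z)`.
-/

namespace Vale.Agent.Lib.P080

open Filter Topology

/-- `f` has value `v0`, derivative `v1` near-and-at `a`, and second derivative `v2` at `a`. -/
def J2At (f : ℝ → ℝ) (a v0 v1 v2 : ℝ) : Prop :=
  f a = v0 ∧ ∃ f' : ℝ → ℝ, (∀ᶠ t in 𝓝 a, HasDerivAt f (f' t) t) ∧ f' a = v1 ∧ HasDerivAt f' v2 a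

namespace J2At

theorem of_eq {f : ℝ → ℝ} {a v0 v1 v2 w0 w1 w2 : ℝ} (h : J2At f a v0 v1 v2)
    (h0 : v0 = w0) (h1 : v1 = w1) (h2 : v2 = w2) : J2At f a w0 w1 w2 := by
  subst h0 h1 h2; exact h

theorem unique {f : ℝ → ℝ} {a v0 v1 v2 w0 w1 w2 : ℝ} (h : J2At f a v0 v1 v2)
    (h' : J2At f a w0 w1 w2) : v0 = w0 ∧ v1 = w1 ∧ v2 = w2 := by
  obtain ⟨h0, f₁, hf₁, h1, h2⟩ := h
  obtain ⟨h0', f₂, hf₂, h1', h2'⟩ := h'
  have heq : f₁ =ᶠ[𝓝 a] f₂ := by
    filter_upwards [hf₁, hf₂] with t ht ht'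
    exact ht.unique ht'
  refine ⟨h0.symm.trans h0', ?_, ?_⟩
  · rw [← h1, ← h1']; exact heq.eq_of_nhds
  · exact (h2.congr_of_eventuallyEq heq.symm).unique h2'

theorem congr {f g : ℝ → ℝ} {a v0 v1 v2 : ℝ} (h : J2At f a v0 v1 v2) (hfg : f =ᶠ[𝓝 a] g) :
    J2At g a v0 v1 v2 := by
  obtain ⟨h0, f₁, hf₁, h1, h2⟩ := h
  refine ⟨hfg.eq_of_nhds ▸ h0, f₁, ?_, h1, h2⟩
  filter_upwards [hf₁, hfg.eventuallyEq_nhds] with t ht ht'
  exact ht.congr_of_eventuallyEq ht'.symm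

theorem comp {f g : ℝ → ℝ} {a v0 v1 v2 w0 w1 w2 : ℝ} (hg : J2At g v0 w0 w1 w2)
    (hf : J2At f a v0 v1 v2) :
    J2At (fun t => g (f t)) a w0 (w1 * v1) (w2 * v1 ^ 2 + w1 * v2) := by
  obtain ⟨hf0, f₁, hf₁, hf1, hf2⟩ := hf
  obtain ⟨hg0, g₁, hg₁, hg1, hg2⟩ := hg
  have hfa : HasDerivAt f (f₁ a) a := hf₁.self_of_nhds
  have hcont : Tendsto f (𝓝 a) (𝓝 v0) := by
    have := hfa.continuousAt.tendsto
    rwa [hf0] at this
  refine ⟨by simp [hf0, hg0], fun t => g₁ (f t) * f₁ t, ?_, by simp [hf0, hg1, hf1], ?_⟩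
  · filter_upwards [hf₁, hcont.eventually hg₁] with t ht ht'
    exact ht'.comp t ht
  · have h1 : HasDerivAt (fun t => g₁ (f t)) (w2 * v1) a := by
      have h := hfa
      rw [hf1] at h
      have hg2' : HasDerivAt g₁ w2 (f a) := by rw [hf0]; exact hg2
      exact hg2'.comp a h
    have h2 := h1.mul hf2
    have e : w2 * v1 * f₁ a + g₁ (f a) * v2 = w2 * v1 ^ 2 + w1 * v2 := by
      rw [hf1, hf0, hg1]; ring
    rw [e] at h2
    exact h2

theorem mul {f g : ℝ → ℝ} {a u0 u1 u2 v0 v1 v2 : ℝ} (hf : J2At f a u0 u1 u2)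
    (hg : J2At g a v0 v1 v2) :
    J2At (fun t => f t * g t) a (u0 * v0) (u1 * v0 + u0 * v1) (u2 * v0 + 2 * u1 * v1 + u0 * v2) := by
  obtain ⟨hf0, f₁, hf₁, hf1, hf2⟩ := hf
  obtain ⟨hg0, g₁, hg₁, hg1, hg2⟩ := hg
  have hfa : HasDerivAt f (f₁ a) a := hf₁.self_of_nhds
  have hga : HasDerivAt g (g₁ a) a := hg₁.self_of_nhds
  refine ⟨by simp [hf0, hg0], fun t => f₁ t * g t + f t * g₁ t, ?_, by simp [hf0, hg0, hf1, hg1], ?_⟩
  · filter_upwards [hf₁, hg₁] with t ht ht'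
    exact ht.mul ht'
  · have h := (hf2.mul hga).add (hfa.mul hg2)
    have e : u2 * g a + f₁ a * g₁ a + (f₁ a * g₁ a + f a * v2)
        = u2 * v0 + 2 * u1 * v1 + u0 * v2 := by
      rw [hf0, hg0, hf1, hg1]; ring
    exact h.congr_deriv e

theorem of_contDiffAt {p : ℝ → ℝ} {a : ℝ} (hp : ContDiffAt ℝ 2 p a) :
    J2At p a (p a) (deriv p a) (deriv (deriv p) a) := by
  refine ⟨rfl, deriv p, ?_, rfl, ?_⟩
  · have : ∀ᶠ t in 𝓝 a, ContDiffAt ℝ 2 p t := by
      exact hp.eventually (by simp)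
    filter_upwards [this] with t ht
    exact (ht.differentiableAt (by norm_num)).hasDerivAt
  · have : ContDiffAt ℝ 1 (deriv p) a := by
      have := hp.fderiv_right (m := 1) (by norm_num)
      have h2 : deriv p = fun t => (fderiv ℝ p t) 1 := by
        funext t; simp
      rw [h2]
      exact this.clm_apply contDiffAt_const
    exact (this.differentiableAt (by norm_num)).hasDerivAt

/-- Jets of a quadratic polynomial at `0`. -/
theorem quad (c0 c1 c2 : ℝ) : J2At (fun t => c0 + c1 * t + c2 * t ^ 2) 0 c0 c1 (2 * c2) := by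
  refine ⟨by simp, fun t => c1 + c2 * (2 * t), Eventually.of_forall fun t => ?_, by simp, ?_⟩
  · have h1 := ((hasDerivAt_id t).const_mul c1).const_add c0
    have h2 := ((hasDerivAt_pow 2 t).const_mul c2)
    have h3 := h1.add h2
    refine h3.congr_deriv ?_
    simp
  · have h1 := (((hasDerivAt_id (0:ℝ)).const_mul 2).const_mul c2).const_add c1
    refine h1.congr_deriv ?_
    simp
    ring

theorem rpow {x₀ : ℝ} (hx : 0 < x₀) (r : ℝ) :
    J2At (fun x => x ^ r) x₀ (x₀ ^ r) (r * x₀ ^ (r - 1)) (r * ((r - 1) * x₀ ^ (r - 1 - 1))) := by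
  refine ⟨rfl, fun x => r * x ^ (r - 1), ?_, rfl, ?_⟩
  · filter_upwards [lt_mem_nhds hx] with t ht
    exact Real.hasDerivAt_rpow_const (Or.inl ht.ne')
  · exact (Real.hasDerivAt_rpow_const (Or.inl hx.ne')).const_mul r

theorem arccos {θ : ℝ} (h0 : 0 < θ) (hπ : θ < Real.pi) :
    J2At Real.arccos (Real.cos θ) θ (-(Real.sin θ)⁻¹)
      (-(Real.cos θ / Real.sin θ ^ 3)) := by
  have hs : 0 < Real.sin θ := Real.sin_pos_of_pos_of_lt_pi h0 hπ
  have hc1 : Real.cos θ ≠ 1 := by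
    intro h
    have := Real.sin_sq_add_cos_sq θ
    rw [h] at this
    nlinarith
  have hc2 : Real.cos θ ≠ -1 := by
    intro h
    have := Real.sin_sq_add_cos_sq θ
    rw [h] at this
    nlinarith
  have hroot : Real.sqrt (1 - Real.cos θ ^ 2) = Real.sin θ := by
    rw [← Real.sin_sq θ]
    exact Real.sqrt_sq hs.le
  refine ⟨Real.arccos_cos h0.le hπ.le, fun x => -(Real.sqrt (1 - x ^ 2))⁻¹, ?_, ?_, ?_⟩
  · have hne : ∀ᶠ x in 𝓝 (Real.cos θ), x ≠ -1 ∧ x ≠ 1 :=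
      (isOpen_ne.eventually_mem hc2).and (isOpen_ne.eventually_mem hc1)
    filter_upwards [hne] with x hx
    have := Real.hasDerivAt_arccos hx.1 hx.2
    rwa [one_div] at this
  · simp [hroot]
  · have h1 : HasDerivAt (fun x : ℝ => 1 - x ^ 2) (-(2 * Real.cos θ)) (Real.cos θ) := by
      have := ((hasDerivAt_pow 2 (Real.cos θ))).const_sub 1
      simpa using this
    have hpos : 1 - Real.cos θ ^ 2 ≠ 0 := by
      rw [← Real.sin_sq θ]; positivity
    have h2 := h1.sqrt hpos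
    have h3 := (h2.inv (by rw [hroot]; exact hs.ne')).neg
    refine h3.congr_deriv ?_
    rw [hroot]
    field_simp

end J2At

/-- The restriction of a `C²` function to a line has the expected two-jet. -/
theorem j2At_line {E : Type*} [NormedAddCommGroup E] [NormedSpace ℝ E] {φ : E → ℝ} {x₀ : E}
    (hφ : ContDiffAt ℝ 2 φ x₀) (y : E) :
    J2At (fun t : ℝ => φ (x₀ + t • y)) 0 (φ x₀) (fderiv ℝ φ x₀ y)
      (fderiv ℝ (fderiv ℝ φ) x₀ y y) := by
  have hline : ∀ t : ℝ, HasDerivAt (fun s : ℝ => x₀ + s • y) y t := by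
    intro t
    have := ((hasDerivAt_id t).smul_const y).const_add x₀
    simpa using this
  have hcont : Tendsto (fun s : ℝ => x₀ + s • y) (𝓝 0) (𝓝 x₀) := by
    have := (hline 0).continuousAt.tendsto
    simpa using this
  refine ⟨by simp, fun t => fderiv ℝ φ (x₀ + t • y) y, ?_, by simp, ?_⟩
  · have h2 : ∀ᶠ x in 𝓝 x₀, ContDiffAt ℝ 2 φ x := hφ.eventually (by simp)
    filter_upwards [hcont.eventually h2] with t ht
    have hd : HasFDerivAt φ (fderiv ℝ φ (x₀ + t • y)) (x₀ + t • y) :=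
      (ht.differentiableAt (by norm_num)).hasFDerivAt
    exact hd.comp_hasDerivAt t (hline t)
  · have h1 : ContDiffAt ℝ 1 (fderiv ℝ φ) x₀ := hφ.fderiv_right (m := 1) (by norm_num)
    have hd : HasFDerivAt (fderiv ℝ φ) (fderiv ℝ (fderiv ℝ φ) x₀) x₀ :=
      (h1.differentiableAt (by norm_num)).hasFDerivAt
    have hd' : HasFDerivAt (fderiv ℝ φ) (fderiv ℝ (fderiv ℝ φ) x₀) (x₀ + (0 : ℝ) • y) := by
      simpa using hd
    have hc := hd'.comp_hasDerivAt (0 : ℝ) (hline 0)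
    have := hc.clm_apply (hasDerivAt_const (0 : ℝ) y)
    simpa using this

end Vale.Agent.Lib.P080
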