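import Vale.Agent.Lib.P080.Defs
import Vale.Agent.Lib.P080.Jet

/-!
# The infinity Laplacian of `‖x‖ ^ k * p (angle x z)`
-/

namespace Vale.Agent.Lib.P080

open Filter Topology InnerProductGeometry
open scoped RealInnerProductSpace

variable {E : Type*} [NormedAddCommGroup E] [InnerProductSpace ℝ E]

/-- The barrier function written so that each ingredient is visibly smooth. -/
noncomputable def barrier (k : ℝ) (p : ℝ → ℝ) (z x : E) : ℝ :=
  (⟪x, x⟫) ^ (k / 2) * p (Real.arccos (⟪x, z⟫ * (⟪x, x⟫) ^ (-(1 / 2 : ℝ))))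

theorem barrier_arg_eq {z x : E} (hz : ‖z‖ = 1) (hx : x ≠ 0) :
    ⟪x, z⟫ * (⟪x, x⟫) ^ (-(1 / 2 : ℝ)) = ⟪x, z⟫ / (‖x‖ * ‖z‖) := by
  have hn : 0 < ‖x‖ := norm_pos_iff.mpr hx
  rw [real_inner_self_eq_norm_sq, hz, mul_one, div_eq_mul_inv]
  congr 1
  rw [← Real.rpow_natCast, ← Real.rpow_mul hn.le]
  norm_num
  exact Real.rpow_neg_one _

theorem barrier_eq (k : ℝ) (p : ℝ → ℝ) {z x : E} (hz : ‖z‖ = 1) (hx : x ≠ 0) :
    barrier k p z x = ‖x‖ ^ k * p (angle x z) := by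
  have hn : 0 < ‖x‖ := norm_pos_iff.mpr hx
  unfold barrier
  rw [barrier_arg_eq hz hx, angle]
  congr 1
  rw [real_inner_self_eq_norm_sq, ← Real.rpow_natCast, ← Real.rpow_mul hn.le]
  congr 1
  push_cast
  ring

/-- The value of the infinity Laplacian on barriers, as a function of a two-jet. -/
def EJ (k p0 p1 p2 : ℝ) : ℝ :=
  p1 ^ 2 * p2 + p0 * ((2 * k ^ 2 - k) * p1 ^ 2 + k ^ 3 * (k - 1) * p0 ^ 2)

section geometry

variable {z x₀ : E} {θ : ℝ}

theorem inner_eq_cos (hz : ‖z‖ = 1) (hx : ‖x₀‖ = 1) (hθ : angle x₀ z = θ) :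
    ⟪x₀, z⟫ = Real.cos θ := by
  rw [← hθ, cos_angle, hx, hz]; simp

end geometry

theorem barrier_contDiffAt {k : ℝ} {p : ℝ → ℝ} {z x₀ : E} {θ : ℝ} (hz : ‖z‖ = 1) (hx : ‖x₀‖ = 1)
    (hθ : angle x₀ z = θ) (h0 : 0 < θ) (hπ : θ < Real.pi) (hp : ContDiffAt ℝ 2 p θ) :
    ContDiffAt ℝ 2 (barrier k p z) x₀ := by
  have hs : 0 < ⟪x₀, x₀⟫ := by
    rw [real_inner_self_eq_norm_sq, hx]; norm_num
  have hS : ContDiffAt ℝ 2 (fun x : E => ⟪x, x⟫) x₀ := contDiffAt_id.inner ℝ contDiffAt_id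
  have hC : ContDiffAt ℝ 2 (fun x : E => ⟪x, z⟫) x₀ := contDiffAt_id.inner ℝ contDiffAt_const
  have hA : ∀ r : ℝ, ContDiffAt ℝ 2 (fun x : E => (⟪x, x⟫) ^ r) x₀ := fun r =>
    hS.rpow_const_of_ne hs.ne'
  have hW : ContDiffAt ℝ 2 (fun x : E => ⟪x, z⟫ * (⟪x, x⟫) ^ (-(1 / 2 : ℝ))) x₀ :=
    hC.mul (hA _)
  have hval : ⟪x₀, z⟫ * (⟪x₀, x₀⟫) ^ (-(1 / 2 : ℝ)) = Real.cos θ := by
    rw [inner_eq_cos hz hx hθ, real_inner_self_eq_norm_sq, hx]; simp
  have hs' : 0 < Real.sin θ := Real.sin_pos_of_pos_of_lt_pi h0 hπ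
  have hc1 : Real.cos θ ≠ 1 := by
    intro h
    have := Real.sin_sq_add_cos_sq θ
    rw [h] at this
    nlinarith
  have hc2 : Real.cos θ ≠ -1 := by
    intro h
    have := Real.sin_sq_add_cos_sq θ
    rw [h] at this
    nlinarith
  have hAc : ContDiffAt ℝ 2 Real.arccos (Real.cos θ) := Real.contDiffAt_arccos hc2 hc1
  have hPsi : ContDiffAt ℝ 2 (fun x : E => Real.arccos (⟪x, z⟫ * (⟪x, x⟫) ^ (-(1 / 2 : ℝ)))) x₀ := by
    have hAc' : ContDiffAt ℝ 2 Real.arccos (⟪x₀, z⟫ * (⟪x₀, x₀⟫) ^ (-(1 / 2 : ℝ))) := by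
      rw [hval]; exact hAc
    exact ContDiffAt.comp (g := Real.arccos) x₀ hAc' hW
  have hP : ContDiffAt ℝ 2 (fun x : E => p (Real.arccos (⟪x, z⟫ * (⟪x, x⟫) ^ (-(1 / 2 : ℝ))))) x₀ := by
    have hp' : ContDiffAt ℝ 2 p (Real.arccos (⟪x₀, z⟫ * (⟪x₀, x₀⟫) ^ (-(1 / 2 : ℝ)))) := by
      rw [hval, Real.arccos_cos h0.le hπ.le]; exact hp
    exact hp'.comp x₀ hPsi
  exact (hA _).mul hP

/-- The two-jet of the barrier along a line through a unit vector. -/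
theorem barrier_line_jet (k : ℝ) {p : ℝ → ℝ} {z x₀ : E} {θ p0 p1 p2 : ℝ} (hz : ‖z‖ = 1)
    (hx : ‖x₀‖ = 1) (hθ : angle x₀ z = θ) (h0 : 0 < θ) (hπ : θ < Real.pi)
    (hp : J2At p θ p0 p1 p2) (y : E) :
    J2At (fun t : ℝ => barrier k p z (x₀ + t • y)) 0 p0
      (k * ⟪x₀, y⟫ * p0 + p1 * ⟪(Real.sin θ)⁻¹ • (Real.cos θ • x₀ - z), y⟫)
      ((k * (k - 2) * ⟪x₀, y⟫ ^ 2 + k * ⟪y, y⟫) * p0
        + 2 * (k * ⟪x₀, y⟫) * (p1 * ⟪(Real.sin θ)⁻¹ • (Real.cos θ • x₀ - z), y⟫)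
        + (p2 * ⟪(Real.sin θ)⁻¹ • (Real.cos θ • x₀ - z), y⟫ ^ 2
          + p1 * (-2 * ⟪x₀, y⟫ * ⟪(Real.sin θ)⁻¹ • (Real.cos θ • x₀ - z), y⟫
            + Real.cos θ * (⟪y, y⟫ - ⟪x₀, y⟫ ^ 2
                - ⟪(Real.sin θ)⁻¹ • (Real.cos θ • x₀ - z), y⟫ ^ 2) / Real.sin θ))) := by
  set a := ⟪x₀, y⟫ with ha
  set b := ⟪(Real.sin θ)⁻¹ • (Real.cos θ • x₀ - z), y⟫ with hb
  set n := ⟪y, y⟫ with hn
  set c := Real.cos θ with hc
  set σ := Real.sin θ with hσ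
  have hσpos : 0 < σ := Real.sin_pos_of_pos_of_lt_pi h0 hπ
  have hzc : ⟪x₀, z⟫ = c := inner_eq_cos hz hx hθ
  have hxx : ⟪x₀, x₀⟫ = 1 := by rw [real_inner_self_eq_norm_sq, hx]; norm_num
  -- the coefficient of `t` in `⟪x₀ + t y, z⟫`
  have hc1 : ⟪z, y⟫ = a * c - b * σ := by
    rw [hb, real_inner_smul_left, inner_sub_left, real_inner_smul_left]
    field_simp
    ring
  -- quadratic and linear ingredients
  have hS : J2At (fun t : ℝ => ⟪x₀ + t • y, x₀ + t • y⟫) 0 1 (2 * a) (2 * n) := by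
    have h := J2At.quad 1 (2 * a) n
    refine h.congr (Eventually.of_forall fun t => ?_)
    have hyx : ⟪y, x₀⟫ = a := real_inner_comm _ _
    simp only [inner_add_left, inner_add_right, real_inner_smul_left, real_inner_smul_right, hxx,
      hyx, ← ha, ← hn]
    ring
  have hC : J2At (fun t : ℝ => ⟪x₀ + t • y, z⟫) 0 c (a * c - b * σ) (2 * 0) := by
    have h := J2At.quad c (a * c - b * σ) 0
    refine h.congr (Eventually.of_forall fun t => ?_)
    have hyz : ⟪y, z⟫ = a * c - b * σ := by rw [real_inner_comm]; exact hc1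
    simp only [inner_add_left, real_inner_smul_left, hzc, hyz]
    ring
  have hA : J2At (fun t : ℝ => (⟪x₀ + t • y, x₀ + t • y⟫) ^ (k / 2)) 0 1 (k * a)
      (k * (k - 2) * a ^ 2 + k * n) := by
    have h := (J2At.rpow (one_pos) (k / 2)).comp hS
    refine h.of_eq (by simp) ?_ ?_
    · simp only [Real.one_rpow]; ring
    · simp only [Real.one_rpow]; ring
  have hB : J2At (fun t : ℝ => (⟪x₀ + t • y, x₀ + t • y⟫) ^ (-(1 / 2 : ℝ))) 0 1 (-a)
      (3 * a ^ 2 - n) := by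
    have h := (J2At.rpow (one_pos) (-(1 / 2 : ℝ))).comp hS
    refine h.of_eq (by simp) ?_ ?_
    · simp only [Real.one_rpow]; ring
    · simp only [Real.one_rpow]; ring
  have hW : J2At (fun t : ℝ => ⟪x₀ + t • y, z⟫ * (⟪x₀ + t • y, x₀ + t • y⟫) ^ (-(1 / 2 : ℝ))) 0
      c (-(b * σ)) (a ^ 2 * c + 2 * a * b * σ - c * n) := by
    have h := hC.mul hB
    refine h.of_eq (by simp) (by ring) (by ring)
  have hPsi : J2At (fun t : ℝ =>
      Real.arccos (⟪x₀ + t • y, z⟫ * (⟪x₀ + t • y, x₀ + t • y⟫) ^ (-(1 / 2 : ℝ)))) 0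
      θ b (-2 * a * b + c * (n - a ^ 2 - b ^ 2) / σ) := by
    have h := (J2At.arccos h0 hπ).comp hW
    refine h.of_eq rfl ?_ ?_
    · rw [← hσ]; field_simp
    · rw [← hσ, ← hc]; field_simp; ring
  have hP := hp.comp hPsi
  have hh := hA.mul hP
  refine hh.of_eq (by ring) (by ring) (by ring)

/-- The infinity Laplacian of a barrier at a unit vector. -/
theorem infLap_barrier [CompleteSpace E] {k : ℝ} {p : ℝ → ℝ} {z x₀ : E} {θ : ℝ} (hz : ‖z‖ = 1)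
    (hx : ‖x₀‖ = 1) (hθ : angle x₀ z = θ) (h0 : 0 < θ) (hπ : θ < Real.pi)
    (hp : ContDiffAt ℝ 2 p θ) :
    infLap (barrier k p z) x₀ = EJ k (p θ) (deriv p θ) (deriv (deriv p) θ) := by
  have hφ := barrier_contDiffAt (k := k) hz hx hθ h0 hπ hp
  have hj := J2At.of_contDiffAt hp
  set p0 := p θ
  set p1 := deriv p θ
  set p2 := deriv (deriv p) θ
  set e : E := (Real.sin θ)⁻¹ • (Real.cos θ • x₀ - z) with he
  set g : E := (k * p0) • x₀ + p1 • e with hg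
  have hσpos : 0 < Real.sin θ := Real.sin_pos_of_pos_of_lt_pi h0 hπ
  have hzc : ⟪x₀, z⟫ = Real.cos θ := inner_eq_cos hz hx hθ
  have hxx : ⟪x₀, x₀⟫ = 1 := by rw [real_inner_self_eq_norm_sq, hx]; norm_num
  have hzz : ⟪z, z⟫ = 1 := by rw [real_inner_self_eq_norm_sq, hz]; norm_num
  have hxe : ⟪x₀, e⟫ = 0 := by
    rw [he, real_inner_smul_right, inner_sub_right, real_inner_smul_right, hxx, hzc]
    simp
  have hee : ⟪e, e⟫ = 1 := by
    rw [he, real_inner_smul_left, real_inner_smul_right]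
    simp only [inner_sub_left, inner_sub_right, real_inner_smul_left, real_inner_smul_right, hxx,
      hzz, hzc, real_inner_comm x₀ z]
    have := Real.sin_sq_add_cos_sq θ
    field_simp
    nlinarith
  -- the gradient
  have hgrad : gradient (barrier k p z) x₀ = g := by
    unfold gradient
    rw [LinearIsometryEquiv.symm_apply_eq]
    ext y
    have h1 := j2At_line hφ y
    have h2 := barrier_line_jet k hz hx hθ h0 hπ hj y
    rw [← he] at h2
    have := (h1.unique h2).2.1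
    have e1 : ⟪g, y⟫ = k * p0 * ⟪x₀, y⟫ + p1 * ⟪e, y⟫ := by
      rw [hg, inner_add_left, real_inner_smul_left, real_inner_smul_left]
    rw [this, InnerProductSpace.toDual_apply_apply, e1]
    ring
  unfold infLap
  rw [hgrad]
  have h1 := j2At_line hφ g
  have h2 := barrier_line_jet k hz hx hθ h0 hπ hj g
  rw [← he] at h2
  rw [(h1.unique h2).2.2]
  have hag : ⟪x₀, g⟫ = k * p0 := by
    rw [hg, inner_add_right, real_inner_smul_right, real_inner_smul_right, hxx, hxe]; ring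
  have hbg : ⟪e, g⟫ = p1 := by
    rw [hg, inner_add_right, real_inner_smul_right, real_inner_smul_right, hee,
      real_inner_comm x₀ e, hxe]
    ring
  have hng : ⟪g, g⟫ = (k * p0) ^ 2 + p1 ^ 2 := by
    rw [hg]
    simp only [inner_add_left, inner_add_right, real_inner_smul_left, real_inner_smul_right, hxx,
      hee, hxe, real_inner_comm x₀ e]
    ring
  rw [hag, hbg, hng]
  unfold EJ
  field_simp
  ring

end Vale.Agent.Lib.P080
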