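import Mathlib

/-!
# Spherical distance on the unit sphere of a real inner product space
-/

namespace Vale.Agent.Lib.P080

open Filter Topology InnerProductGeometry
open scoped RealInnerProductSpace

variable {E : Type*} [NormedAddCommGroup E] [InnerProductSpace ℝ E]

/-- The spherical distance of two unit vectors, written so that it is globally continuous. -/
noncomputable def ang (x y : E) : ℝ := Real.arccos ⟪x, y⟫

theorem ang_eq_angle {x y : E} (hx : ‖x‖ = 1) (hy : ‖y‖ = 1) : ang x y = angle x y := by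
  unfold ang angle
  rw [hx, hy]; simp

theorem continuous_ang_left (z : E) : Continuous fun x : E => ang x z :=
  Real.continuous_arccos.comp (continuous_id.inner continuous_const)

theorem continuous_ang : Continuous fun p : E × E => ang p.1 p.2 :=
  Real.continuous_arccos.comp (continuous_fst.inner continuous_snd)

theorem ang_comm (x y : E) : ang x y = ang y x := by
  unfold ang; rw [real_inner_comm]

theorem ang_nonneg (x y : E) : 0 ≤ ang x y := Real.arccos_nonneg _

theorem ang_le_pi (x y : E) : ang x y ≤ Real.pi := Real.arccos_le_pi _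

theorem cos_ang {x y : E} (hx : ‖x‖ = 1) (hy : ‖y‖ = 1) : Real.cos (ang x y) = ⟪x, y⟫ := by
  rw [ang_eq_angle hx hy, cos_angle, hx, hy]; simp

theorem inner_self_one {x : E} (hx : ‖x‖ = 1) : ⟪x, x⟫ = 1 := by
  rw [real_inner_self_eq_norm_sq, hx]; norm_num

theorem ang_self {x : E} (hx : ‖x‖ = 1) : ang x x = 0 := by
  unfold ang; rw [inner_self_one hx]; simp

theorem norm_sub_sq_eq {x y : E} (hx : ‖x‖ = 1) (hy : ‖y‖ = 1) :
    ‖x - y‖ ^ 2 = 2 - 2 * Real.cos (ang x y) := by
  rw [cos_ang hx hy, @norm_sub_sq_real, hx, hy]; ring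

theorem eq_of_ang_eq_zero {x y : E} (hx : ‖x‖ = 1) (hy : ‖y‖ = 1) (h : ang x y = 0) : x = y := by
  have := norm_sub_sq_eq hx hy
  rw [h] at this
  simp only [Real.cos_zero] at this
  have h2 : ‖x - y‖ = 0 := by
    have : ‖x - y‖ ^ 2 = 0 := by linarith
    exact pow_eq_zero_iff (two_ne_zero) |>.mp this
  exact sub_eq_zero.mp (norm_eq_zero.mp h2)

theorem norm_sub_le_ang {x y : E} (hx : ‖x‖ = 1) (hy : ‖y‖ = 1) : ‖x - y‖ ≤ ang x y := by
  have h1 := norm_sub_sq_eq hx hy
  have h2 := Real.one_sub_sq_div_two_le_cos (x := ang x y)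
  have h3 := ang_nonneg x y
  have h4 : ‖x - y‖ ^ 2 ≤ ang x y ^ 2 := by nlinarith
  exact (abs_le_of_sq_le_sq' h4 h3).2

theorem ang_triangle {x y z : E} (hx : ‖x‖ = 1) (hy : ‖y‖ = 1) (hz : ‖z‖ = 1) :
    ang x z ≤ ang x y + ang y z := by
  rw [ang_eq_angle hx hz, ang_eq_angle hx hy, ang_eq_angle hy hz]
  exact angle_le_angle_add_angle x y z

theorem ang_of_inner_eq_cos {x y : E} {t : ℝ} (h0 : 0 ≤ t) (hπ : t ≤ Real.pi)
    (h : ⟪x, y⟫ = Real.cos t) : ang x y = t := by
  unfold ang; rw [h]; exact Real.arccos_cos h0 hπ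

/-- A point on a minimizing arc between two non-antipodal unit vectors. -/
theorem exists_between {x y : E} (hx : ‖x‖ = 1) (hy : ‖y‖ = 1) (hπ : ang x y < Real.pi) {t : ℝ}
    (h0 : 0 ≤ t) (ht : t ≤ ang x y) :
    ∃ n : E, ‖n‖ = 1 ∧ ang x n = t ∧ ang n y = ang x y - t := by
  rcases (ang_nonneg x y).eq_or_lt with h | hpos
  · -- the two points coincide
    have hxy : x = y := eq_of_ang_eq_zero hx hy h.symm
    have ht0 : t = 0 := by linarith
    refine ⟨x, hx, ?_, ?_⟩
    · rw [ang_self hx, ht0]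
    · rw [← h, ht0]; simp [hxy]
  · set θ := ang x y with hθ
    have hs : 0 < Real.sin θ := Real.sin_pos_of_pos_of_lt_pi hpos hπ
    have hc : ⟪x, y⟫ = Real.cos θ := (cos_ang hx hy).symm
    have hxx := inner_self_one hx
    have hyy := inner_self_one hy
    set n : E := (Real.sin θ)⁻¹ • (Real.sin (θ - t) • x + Real.sin t • y) with hn
    have hxn : ⟪x, n⟫ = Real.cos t := by
      rw [hn, real_inner_smul_right, inner_add_right, real_inner_smul_right, real_inner_smul_right,
        hxx, hc]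
      have : Real.sin (θ - t) = Real.sin θ * Real.cos t - Real.cos θ * Real.sin t :=
        Real.sin_sub θ t
      rw [this]
      field_simp
      ring
    have hny : ⟪n, y⟫ = Real.cos (θ - t) := by
      rw [hn, real_inner_smul_left, inner_add_left, real_inner_smul_left, real_inner_smul_left,
        hyy, hc]
      rw [Real.sin_sub θ t, Real.cos_sub θ t]
      field_simp
      have := Real.sin_sq_add_cos_sq θ
      linear_combination (-Real.sin t) * this
    have hnn : ⟪n, n⟫ = 1 := by
      have h1 : ⟪n, x⟫ = Real.cos t := by rw [real_inner_comm]; exact hxn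
      have : ⟪n, n⟫ = (Real.sin θ)⁻¹ * (Real.sin (θ - t) * ⟪n, x⟫ + Real.sin t * ⟪n, y⟫) := by
        conv_lhs => rw [hn]
        rw [← hn, real_inner_smul_right, inner_add_right, real_inner_smul_right,
          real_inner_smul_right]
      rw [this, h1, hny]
      have e : Real.sin θ = Real.sin ((θ - t) + t) := by ring_nf
      rw [Real.sin_add] at e
      field_simp
      rw [e]
      ring
    have hn1 : ‖n‖ = 1 := by
      have h2 : ‖n‖ ^ 2 = 1 := by rw [← real_inner_self_eq_norm_sq]; exact hnn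
      have h3 := norm_nonneg n
      nlinarith
    refine ⟨n, hn1, ?_, ?_⟩
    · exact ang_of_inner_eq_cos h0 (by linarith) hxn
    · exact ang_of_inner_eq_cos (by linarith) (by linarith) hny

/-- A property holding near `x` holds at all unit vectors of small spherical distance. -/
theorem exists_ang_ball {P : E → Prop} {x : E} (hx : ‖x‖ = 1) (h : ∀ᶠ y in 𝓝 x, P y) :
    ∃ τ > 0, ∀ y : E, ‖y‖ = 1 → ang y x < τ → P y := by
  obtain ⟨ε, hε, hball⟩ := Metric.eventually_nhds_iff.mp h
  refine ⟨ε, hε, fun y hy hyx => hball ?_⟩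
  rw [dist_eq_norm]
  exact lt_of_le_of_lt (norm_sub_le_ang hy hx) hyx

/-- Great circles through orthonormal frames. -/
noncomputable def gc (r d : E) (t : ℝ) : E := Real.cos t • r + Real.sin t • d

section gc

variable {r d : E}

theorem continuous_gc (r d : E) : Continuous (gc r d) := by
  unfold gc; fun_prop

theorem inner_gc_gc (hr : ‖r‖ = 1) (hd : ‖d‖ = 1) (hrd : ⟪r, d⟫ = 0) (s t : ℝ) :
    ⟪gc r d s, gc r d t⟫ = Real.cos (s - t) := by
  unfold gc
  have h1 := inner_self_one hr
  have h2 := inner_self_one hd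
  have h3 : ⟪d, r⟫ = 0 := by rw [real_inner_comm]; exact hrd
  simp only [inner_add_left, inner_add_right, real_inner_smul_left, real_inner_smul_right, h1, h2,
    h3, hrd]
  rw [Real.cos_sub]
  ring

theorem norm_gc (hr : ‖r‖ = 1) (hd : ‖d‖ = 1) (hrd : ⟪r, d⟫ = 0) (t : ℝ) : ‖gc r d t‖ = 1 := by
  have h := inner_gc_gc hr hd hrd t t
  rw [sub_self, Real.cos_zero, real_inner_self_eq_norm_sq] at h
  have h3 := norm_nonneg (gc r d t)
  nlinarith

theorem gc_zero (r d : E) : gc r d 0 = r := by simp [gc]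

theorem ang_gc_gc (hr : ‖r‖ = 1) (hd : ‖d‖ = 1) (hrd : ⟪r, d⟫ = 0) {s t : ℝ} (h0 : 0 ≤ s - t)
    (hπ : s - t ≤ Real.pi) : ang (gc r d s) (gc r d t) = s - t :=
  ang_of_inner_eq_cos h0 hπ (inner_gc_gc hr hd hrd s t)

/-- Every unit vector at a distance in `(0, π)` from `r` is on a great circle through `r`. -/
theorem exists_gc_of_ang {x : E} (hr : ‖r‖ = 1) (hx : ‖x‖ = 1) (h0 : 0 < ang x r)
    (hπ : ang x r < Real.pi) :
    ∃ d : E, ‖d‖ = 1 ∧ ⟪r, d⟫ = 0 ∧ x = gc r d (ang x r) := by
  set θ := ang x r with hθ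
  have hs : 0 < Real.sin θ := Real.sin_pos_of_pos_of_lt_pi h0 hπ
  have hc : ⟪x, r⟫ = Real.cos θ := (cos_ang hx hr).symm
  have hrr := inner_self_one hr
  have hxx := inner_self_one hx
  set d : E := (Real.sin θ)⁻¹ • (x - Real.cos θ • r) with hd
  have hrd : ⟪r, d⟫ = 0 := by
    rw [hd, real_inner_smul_right, inner_sub_right, real_inner_smul_right, hrr, real_inner_comm, hc]
    simp
  have hdd : ⟪d, d⟫ = 1 := by
    rw [hd, real_inner_smul_left, real_inner_smul_right]
    simp only [inner_sub_left, inner_sub_right, real_inner_smul_left, real_inner_smul_right, hxx,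
      hrr, hc, real_inner_comm x r]
    have := Real.sin_sq_add_cos_sq θ
    field_simp
    nlinarith
  have hd1 : ‖d‖ = 1 := by
    have h2 : ‖d‖ ^ 2 = 1 := by rw [← real_inner_self_eq_norm_sq]; exact hdd
    have h3 := norm_nonneg d
    nlinarith
  refine ⟨d, hd1, hrd, ?_⟩
  unfold gc
  rw [hd, smul_smul, mul_inv_cancel₀ hs.ne', one_smul]
  abel

/-- Existence of an orthogonal unit vector, in dimension at least two. -/
theorem exists_orthogonal_unit [FiniteDimensional ℝ E] (hdim : 2 ≤ Module.finrank ℝ E) (z : E) :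
    ∃ e : E, ‖e‖ = 1 ∧ ⟪z, e⟫ = 0 := by
  have h1 : Module.finrank ℝ (Submodule.span ℝ {z}) ≤ 1 := by
    simpa using finrank_span_le_card (R := ℝ) ({z} : Set E)
  have h2 := Submodule.finrank_add_finrank_orthogonal (Submodule.span ℝ {z})
  have h3 : 0 < Module.finrank ℝ (Submodule.span ℝ {z})ᗮ := by omega
  have : Nontrivial (Submodule.span ℝ {z})ᗮ := Module.nontrivial_of_finrank_pos h3
  obtain ⟨w, hw⟩ := exists_ne (0 : (Submodule.span ℝ {z})ᗮ)
  have hw0 : (w : E) ≠ 0 := by simpa using hw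
  have hzw : ⟪z, (w : E)⟫ = 0 := by
    have := w.2
    rw [Submodule.mem_orthogonal_singleton_iff_inner_right] at this
    exact this
  refine ⟨(‖(w : E)‖)⁻¹ • (w : E), ?_, ?_⟩
  · rw [norm_smul, norm_inv, norm_norm]
    exact inv_mul_cancel₀ (norm_ne_zero_iff.mpr hw0)
  · rw [real_inner_smul_right, hzw, mul_zero]

end gc

end Vale.Agent.Lib.P080
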