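import Vale.Agent.Lib.P080.Profile
import Vale.Agent.Lib.P080.Sphere

/-!
# Comparison on the sphere
-/

namespace Vale.Agent.Lib.P080

open Filter Topology Set
open scoped RealInnerProductSpace

variable {E : Type*} [NormedAddCommGroup E] [InnerProductSpace ℝ E]

/-- The infinity Laplacian of a barrier, in terms of its angular profile. -/
noncomputable def EE (k : ℝ) (p : ℝ → ℝ) (θ : ℝ) : ℝ :=
  EJ k (p θ) (deriv p θ) (deriv (deriv p) θ)

/-- The sphere-level form of the viscosity condition for `k`-homogeneous solutions. -/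
structure SphSol (k : ℝ) (f : E → ℝ) : Prop where
  cont : ContinuousOn f (Metric.sphere 0 1)
  above : ∀ (z x₀ : E) (p : ℝ → ℝ), ‖z‖ = 1 → ‖x₀‖ = 1 → 0 < ang x₀ z → ang x₀ z < Real.pi →
    ContDiffAt ℝ 2 p (ang x₀ z) → f x₀ = p (ang x₀ z) →
    (∀ᶠ x in 𝓝 x₀, ‖x‖ = 1 → f x ≤ p (ang x z)) → 0 ≤ EE k p (ang x₀ z)
  below : ∀ (z x₀ : E) (p : ℝ → ℝ), ‖z‖ = 1 → ‖x₀‖ = 1 → 0 < ang x₀ z → ang x₀ z < Real.pi →
    ContDiffAt ℝ 2 p (ang x₀ z) → f x₀ = p (ang x₀ z) →
    (∀ᶠ x in 𝓝 x₀, ‖x‖ = 1 → p (ang x z) ≤ f x) → EE k p (ang x₀ z) ≤ 0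

theorem EE_neg (k : ℝ) (p : ℝ → ℝ) (θ : ℝ) : EE k (fun t => -p t) θ = -EE k p θ := by
  have h1 : deriv (fun t => -p t) = fun t => -deriv p t := by
    funext t; exact deriv.fun_neg
  have h2 : deriv (fun t => -deriv p t) = fun t => -deriv (deriv p) t := by
    funext t; exact deriv.fun_neg
  unfold EE EJ
  rw [h1, h2]
  ring

theorem SphSol.neg {k : ℝ} {f : E → ℝ} (hf : SphSol k f) : SphSol k (fun x => -f x) := by
  refine ⟨hf.cont.neg, ?_, ?_⟩
  · intro z x₀ p hz hx h0 hπ hp hval hle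
    have h := hf.below z x₀ (fun t => -p t) hz hx h0 hπ hp.neg (by linarith) ?_
    · rw [EE_neg] at h; linarith
    · filter_upwards [hle] with x hx' hx1
      have := hx' hx1
      linarith
  · intro z x₀ p hz hx h0 hπ hp hval hle
    have h := hf.above z x₀ (fun t => -p t) hz hx h0 hπ hp.neg (by linarith) ?_
    · rw [EE_neg] at h; linarith
    · filter_upwards [hle] with x hx' hx1
      have := hx' hx1
      linarith

/-- The effect of an affine change of variables and a scaling on `EE`. -/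
theorem EE_scaled {k : ℝ} {q : ℝ → ℝ} (lam b c θ : ℝ)
    (hode : EJ k (q (b * θ + c)) (deriv q (b * θ + c)) (deriv (deriv q) (b * θ + c)) = 0) :
    EE k (fun t => lam * q (b * t + c)) θ =
      lam ^ 3 * q (b * θ + c) * ((2 * k ^ 2 - k) * deriv q (b * θ + c) ^ 2 * b ^ 2 * (1 - b ^ 2)
        + k ^ 3 * (k - 1) * q (b * θ + c) ^ 2 * (1 - b ^ 4)) := by
  have haff : ∀ g : ℝ → ℝ, deriv (fun t => g (b * t + c)) = fun t => b * deriv g (b * t + c) := by
    intro g
    funext t
    have h1 := deriv_comp_mul_left b (fun y => g (y + c)) t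
    have h2 := deriv_comp_add_const g c (b * t)
    simp only [smul_eq_mul] at h1
    rw [h1, h2]
  have h1 : deriv (fun t => lam * q (b * t + c)) = fun t => lam * (b * deriv q (b * t + c)) := by
    funext t
    rw [deriv_const_mul_field, haff]
  have h2 : deriv (fun t => lam * (b * deriv q (b * t + c)))
      = fun t => lam * (b * (b * deriv (deriv q) (b * t + c))) := by
    funext t
    rw [deriv_const_mul_field, deriv_const_mul_field, haff]
  unfold EE
  rw [h1, h2]
  unfold EJ at hode ⊢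
  set Q := q (b * θ + c)
  set Q' := deriv q (b * θ + c)
  set Q'' := deriv (deriv q) (b * θ + c)
  linear_combination (lam ^ 3 * b ^ 4) * hode

section profile

variable {k L : ℝ} {q : ℝ → ℝ}

theorem IsProfile.L_pos (hP : IsProfile k L q) : 0 < L := by
  have := hP.L_gt
  have := Real.pi_pos
  linarith

theorem IsProfile.q_pos (hP : IsProfile k L q) {t : ℝ} (h0 : 0 < t) (h1 : t ≤ L) : 0 < q t := by
  have := hP.mono ⟨le_rfl, hP.L_pos.le⟩ ⟨h0.le, h1⟩ h0
  rwa [hP.zero] at this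

theorem IsProfile.q_nonneg (hP : IsProfile k L q) {t : ℝ} (h0 : 0 ≤ t) (h1 : t ≤ L) : 0 ≤ q t := by
  rcases h0.eq_or_lt with h | h
  · rw [← h, hP.zero]
  · exact (hP.q_pos h h1).le

theorem IsProfile.q_lt_one (hP : IsProfile k L q) {t : ℝ} (h0 : 0 ≤ t) (h1 : t < L) : q t < 1 := by
  have := hP.mono ⟨h0, h1.le⟩ ⟨hP.L_pos.le, le_rfl⟩ h1
  rwa [hP.top] at this

theorem IsProfile.EE_neg (hP : IsProfile k L q) (hk : 1 < k) {lam b c θ : ℝ} (hlam : 0 < lam)
    (hb : 1 < b ^ 2) (h0 : 0 < b * θ + c) (h1 : b * θ + c < L) :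
    EE k (fun t => lam * q (b * t + c)) θ < 0 := by
  rw [EE_scaled lam b c θ (hP.ode _ ⟨h0, h1⟩)]
  have hq := hP.q_pos h0 h1.le
  have hk2 : 0 < k - 1 := by linarith
  have hk3 : 0 < 2 * k ^ 2 - k := by nlinarith
  have hb2 : 1 - b ^ 2 < 0 := by linarith
  have hb4 : 1 - b ^ 4 < 0 := by nlinarith
  have hA : (2 * k ^ 2 - k) * deriv q (b * θ + c) ^ 2 * b ^ 2 * (1 - b ^ 2) ≤ 0 := by
    apply mul_nonpos_of_nonneg_of_nonpos _ hb2.le
    positivity
  have hB : k ^ 3 * (k - 1) * q (b * θ + c) ^ 2 * (1 - b ^ 4) < 0 := by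
    apply mul_neg_of_pos_of_neg _ hb4
    have hk0 : 0 < k := by linarith
    positivity
  apply mul_neg_of_pos_of_neg (by positivity) (by linarith)

theorem IsProfile.EE_pos (hP : IsProfile k L q) (hk : 1 < k) {lam b c θ : ℝ} (hlam : 0 < lam)
    (hb : b ^ 2 < 1) (h0 : 0 < b * θ + c) (h1 : b * θ + c < L) :
    0 < EE k (fun t => lam * q (b * t + c)) θ := by
  rw [EE_scaled lam b c θ (hP.ode _ ⟨h0, h1⟩)]
  have hq := hP.q_pos h0 h1.le
  have hk2 : 0 < k - 1 := by linarith
  have hk3 : 0 < 2 * k ^ 2 - k := by nlinarith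
  have hb2 : 0 < 1 - b ^ 2 := by linarith
  have hb4 : 0 < 1 - b ^ 4 := by nlinarith [sq_nonneg b]
  have hA : 0 ≤ (2 * k ^ 2 - k) * deriv q (b * θ + c) ^ 2 * b ^ 2 * (1 - b ^ 2) := by
    positivity
  have hB : 0 < k ^ 3 * (k - 1) * q (b * θ + c) ^ 2 * (1 - b ^ 4) := by
    have hk0 : 0 < k := by linarith
    positivity
  apply mul_pos (by positivity) (by linarith)

theorem IsProfile.contDiffAt_scaled (hP : IsProfile k L q) {lam b c θ : ℝ} (h0 : 0 < b * θ + c)
    (h1 : b * θ + c < L) : ContDiffAt ℝ 2 (fun t => lam * q (b * t + c)) θ := by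
  have h : ContDiffAt ℝ 2 (fun t : ℝ => b * t + c) θ := by fun_prop
  exact contDiffAt_const.mul (ContDiffAt.comp θ (hP.diff _ ⟨h0, h1⟩) h)

end profile

section comparison

variable [FiniteDimensional ℝ E] {k L : ℝ} {q : ℝ → ℝ} {f : E → ℝ}

theorem isCompact_annulus (z : E) (b₁ b₂ : ℝ) :
    IsCompact {x : E | ‖x‖ = 1 ∧ b₁ ≤ ang x z ∧ ang x z ≤ b₂} := by
  have h1 : IsCompact (Metric.sphere (0 : E) 1) := isCompact_sphere 0 1
  have hc := continuous_ang_left z
  have h2 : IsClosed {x : E | b₁ ≤ ang x z ∧ ang x z ≤ b₂} :=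
    (isClosed_le continuous_const hc).inter (isClosed_le hc continuous_const)
  have h3 := h1.inter_right h2
  convert h3 using 1
  ext x
  simp

/-- Comparison from above on an annulus, with a strict supersolution `C q (β (a + θ))`. -/
theorem compare_above (hP : IsProfile k L q) (hk : 1 < k) (hf : SphSol k f) {z : E} (hz : ‖z‖ = 1)
    {b₁ b₂ a β C : ℝ} (hb₁ : 0 ≤ b₁) (hb₂ : b₂ ≤ Real.pi) (hβ : 1 < β) (ha : 0 < a + b₁)
    (haL : β * (a + b₂) ≤ L) (hC : 0 ≤ C)
    (hin : ∀ x : E, ‖x‖ = 1 → ang x z = b₁ → f x ≤ C * q (β * (a + b₁)))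
    (hout : ∀ x : E, ‖x‖ = 1 → ang x z = b₂ → f x ≤ C * q (β * (a + b₂))) :
    ∀ x : E, ‖x‖ = 1 → b₁ ≤ ang x z → ang x z ≤ b₂ → f x ≤ C * q (β * (a + ang x z)) := by
  intro x hx h1 h2
  by_contra hcon
  push Not at hcon
  set A : Set E := {y : E | ‖y‖ = 1 ∧ b₁ ≤ ang y z ∧ ang y z ≤ b₂} with hA
  have hAc : IsCompact A := isCompact_annulus z b₁ b₂
  have hβ0 : 0 < β := by linarith
  have harg0 : ∀ y ∈ A, 0 < β * (a + ang y z) := fun y hy =>
    mul_pos hβ0 (by linarith [hy.2.1])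
  have hargL : ∀ y ∈ A, β * (a + ang y z) ≤ L := fun y hy => by
    have : β * (a + ang y z) ≤ β * (a + b₂) := by
      apply mul_le_mul_of_nonneg_left _ hβ0.le
      linarith [hy.2.2]
    linarith
  have hqpos : ∀ y ∈ A, 0 < q (β * (a + ang y z)) := fun y hy =>
    hP.q_pos (harg0 y hy) (hargL y hy)
  have hcontq : ContinuousOn (fun y => q (β * (a + ang y z))) A := by
    apply hP.cont.comp
    · exact (continuous_const.mul (continuous_const.add (continuous_ang_left z))).continuousOn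
    · exact fun y hy => ⟨(harg0 y hy).le, hargL y hy⟩
  have hcontf : ContinuousOn f A := hf.cont.mono fun y hy => by
    simpa [mem_sphere_zero_iff_norm] using hy.1
  have hcontR : ContinuousOn (fun y => f y / q (β * (a + ang y z))) A :=
    hcontf.div hcontq fun y hy => (hqpos y hy).ne'
  have hxA : x ∈ A := ⟨hx, h1, h2⟩
  obtain ⟨x₁, hx₁, hmax⟩ := hAc.exists_isMaxOn ⟨x, hxA⟩ hcontR
  set lam := f x₁ / q (β * (a + ang x₁ z)) with hlam
  have hRle : ∀ y ∈ A, f y ≤ lam * q (β * (a + ang y z)) := fun y hy => by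
    have := hmax hy
    simp only [mem_ofPred_eq] at this
    rwa [div_le_iff₀ (hqpos y hy)] at this
  have hClt : C < lam := by
    have h3 := hmax hxA
    simp only [mem_ofPred_eq] at h3
    refine lt_of_lt_of_le ?_ h3
    rwa [lt_div_iff₀ (hqpos x hxA)]
  have hlampos : 0 < lam := lt_of_le_of_lt hC hClt
  have hval : f x₁ = lam * q (β * (a + ang x₁ z)) := by
    rw [hlam]; field_simp [(hqpos x₁ hx₁).ne']
  -- the maximum is not on the boundary
  have hne1 : ang x₁ z ≠ b₁ := by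
    intro h
    have h3 := hin x₁ hx₁.1 h
    rw [hval, h] at h3
    have h4 := hqpos x₁ hx₁
    rw [h] at h4
    nlinarith
  have hne2 : ang x₁ z ≠ b₂ := by
    intro h
    have h3 := hout x₁ hx₁.1 h
    rw [hval, h] at h3
    have h4 := hqpos x₁ hx₁
    rw [h] at h4
    nlinarith
  have hlt1 : b₁ < ang x₁ z := lt_of_le_of_ne hx₁.2.1 (Ne.symm hne1)
  have hlt2 : ang x₁ z < b₂ := lt_of_le_of_ne hx₁.2.2 hne2
  have ht0 : 0 < β * ang x₁ z + β * a := by
    have := harg0 x₁ hx₁
    linarith [mul_add β a (ang x₁ z)]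
  have htL : β * ang x₁ z + β * a < L := by
    have : β * (a + ang x₁ z) < β * (a + b₂) := by
      apply mul_lt_mul_of_pos_left _ hβ0
      linarith
    linarith [mul_add β a (ang x₁ z)]
  have hcd := hP.contDiffAt_scaled (lam := lam) ht0 htL
  have hE := hf.above z x₁ (fun t => lam * q (β * t + β * a)) hz hx₁.1 (by linarith)
    (by linarith) hcd (by
      rw [hval]
      congr 2
      ring) (by
      have hc := continuous_ang_left z
      have hev1 : ∀ᶠ y in 𝓝 x₁, b₁ < ang y z := hc.continuousAt.eventually_const_lt hlt1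
      have hev2 : ∀ᶠ y in 𝓝 x₁, ang y z < b₂ := hc.continuousAt.eventually_lt_const hlt2
      filter_upwards [hev1, hev2] with y hy1 hy2 hy
      have := hRle y ⟨hy, hy1.le, hy2.le⟩
      convert this using 3
      ring)
  have hneg := hP.EE_neg hk hlampos (b := β) (c := β * a) (θ := ang x₁ z)
    (by nlinarith) ht0 htL
  linarith

/-- The barrier from below, on a disk where `f` is positive. -/
theorem lower_barrier (hP : IsProfile k L q) (hk : 1 < k) (hf : SphSol k f) {z : E} (hz : ‖z‖ = 1)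
    {β : ℝ} (hβ0 : 0 < β) (hβ1 : β < 1) (hR : L / β < Real.pi)
    (hpos : ∀ x : E, ‖x‖ = 1 → ang x z ≤ L / β → 0 < f x) :
    ∀ x : E, ‖x‖ = 1 → ang x z ≤ L / β → f z * q (L - β * ang x z) ≤ f x := by
  intro x hx h1
  by_contra hcon
  push Not at hcon
  have hL := hP.L_pos
  set A : Set E := {y : E | ‖y‖ = 1 ∧ 0 ≤ ang y z ∧ ang y z ≤ L / β} with hA
  have hAc : IsCompact A := isCompact_annulus z 0 (L / β)
  have hR0 : 0 < L / β := by positivity
  have hzA : z ∈ A := ⟨hz, by rw [ang_self hz], by rw [ang_self hz]; exact hR0.le⟩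
  have hxA : x ∈ A := ⟨hx, ang_nonneg _ _, h1⟩
  have harg0 : ∀ y ∈ A, 0 ≤ L - β * ang y z := fun y hy => by
    have := hy.2.2
    rw [le_div_iff₀ hβ0] at this
    linarith
  have hargL : ∀ y ∈ A, L - β * ang y z ≤ L := fun y hy => by
    have := mul_nonneg hβ0.le hy.2.1
    linarith
  have hfpos : ∀ y ∈ A, 0 < f y := fun y hy => hpos y hy.1 hy.2.2
  have hcontq : ContinuousOn (fun y => q (L - β * ang y z)) A := by
    apply hP.cont.comp
    · exact (continuous_const.sub (continuous_const.mul (continuous_ang_left z))).continuousOn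
    · exact fun y hy => ⟨harg0 y hy, hargL y hy⟩
  have hcontf : ContinuousOn f A := hf.cont.mono fun y hy => by
    simpa [mem_sphere_zero_iff_norm] using hy.1
  have hcontR : ContinuousOn (fun y => q (L - β * ang y z) / f y) A :=
    hcontq.div hcontf fun y hy => (hfpos y hy).ne'
  obtain ⟨x₁, hx₁, hmax⟩ := hAc.exists_isMaxOn ⟨x, hxA⟩ hcontR
  set lam := q (L - β * ang x₁ z) / f x₁ with hlam
  have hRle : ∀ y ∈ A, q (L - β * ang y z) ≤ lam * f y := fun y hy => by
    have := hmax hy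
    simp only [mem_ofPred_eq] at this
    rwa [div_le_iff₀ (hfpos y hy)] at this
  have hfz := hfpos z hzA
  have hfx := hfpos x hxA
  have hRz : q (L - β * ang z z) / f z = 1 / f z := by
    rw [ang_self hz, mul_zero, sub_zero, hP.top]
  have hgt : 1 / f z < lam := by
    have h3 := hmax hxA
    simp only [mem_ofPred_eq] at h3
    refine lt_of_lt_of_le ?_ h3
    rw [div_lt_div_iff₀ hfz hfx]
    linarith
  have hlampos : 0 < lam := lt_trans (by positivity) hgt
  have hval : q (L - β * ang x₁ z) = lam * f x₁ := by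
    rw [hlam]; field_simp [(hfpos x₁ hx₁).ne']
  have hf1 := hfpos x₁ hx₁
  have hθ0 : 0 < ang x₁ z := by
    rcases (ang_nonneg x₁ z).eq_or_lt with h | h
    · exfalso
      have hxz := eq_of_ang_eq_zero hx₁.1 hz h.symm
      rw [hxz, hRz] at hlam
      rw [hlam] at hgt
      exact lt_irrefl _ hgt
    · exact h
  have ht0 : 0 < L - β * ang x₁ z := by
    rcases (harg0 x₁ hx₁).eq_or_lt with h | h
    · exfalso
      rw [← h, hP.zero] at hval
      have : 0 < lam * f x₁ := by positivity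
      linarith
    · exact h
  have hθlt : ang x₁ z < L / β := by
    rw [lt_div_iff₀ hβ0]; linarith
  have hbθ : (-β) * ang x₁ z + L = L - β * ang x₁ z := by ring
  have ht0' : 0 < (-β) * ang x₁ z + L := by rw [hbθ]; exact ht0
  have htL' : (-β) * ang x₁ z + L < L := by
    have := mul_pos hβ0 hθ0
    linarith
  have hcd := hP.contDiffAt_scaled (lam := lam⁻¹) ht0' htL'
  have hE := hf.below z x₁ (fun t => lam⁻¹ * q ((-β) * t + L)) hz hx₁.1 hθ0
    (by linarith) hcd (by
      rw [hbθ, hval]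
      field_simp) (by
      have hc := continuous_ang_left z
      have hev2 : ∀ᶠ y in 𝓝 x₁, ang y z < L / β := hc.continuousAt.eventually_lt_const hθlt
      filter_upwards [hev2] with y hy2 hy
      have h3 := hRle y ⟨hy, ang_nonneg _ _, hy2.le⟩
      have e : (-β) * ang y z + L = L - β * ang y z := by ring
      rw [e, inv_mul_le_iff₀ hlampos]
      exact h3)
  have hpos' := hP.EE_pos hk (inv_pos.mpr hlampos) (b := -β) (c := L) (θ := ang x₁ z)
    (by nlinarith) ht0' htL'
  linarith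

end comparison

end Vale.Agent.Lib.P080
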