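import Vale.Agent.Lib.P080.Top

/-!
# The crossing lemma: beyond a contact point the solution reaches its negative extreme
-/

namespace Vale.Agent.Lib.P080

open Filter Topology Set
open scoped RealInnerProductSpace

variable {E : Type*} [NormedAddCommGroup E] [InnerProductSpace ℝ E]
  [FiniteDimensional ℝ E] {k L : ℝ} {q : ℝ → ℝ} {f : E → ℝ}

/-- Two-sided linear bounds of the profile near `0`. -/
theorem IsProfile.slope_bounds (hP : IsProfile k L q) {κ : ℝ} (hκ : HasDerivAt q κ 0) {ε : ℝ}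
    (hε : 0 < ε) : ∃ ζ₁ > 0, ∀ ζ, 0 < ζ → ζ < ζ₁ → (κ - ε) * ζ ≤ q ζ ∧ q ζ ≤ (κ + ε) * ζ := by
  have h := hasDerivAt_iff_isLittleO_nhds_zero.mp hκ
  have h2 := h.def hε
  obtain ⟨δ, hδ, hball⟩ := Metric.eventually_nhds_iff.mp h2
  refine ⟨δ, hδ, fun ζ h0 h1 => ?_⟩
  have h3 := hball (y := ζ) (by rw [Real.dist_eq, sub_zero, abs_of_pos h0]; exact h1)
  simp only [zero_add, hP.zero, sub_zero, smul_eq_mul, Real.norm_eq_abs, abs_of_pos h0] at h3
  have h4 := abs_le.mp h3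
  constructor <;> nlinarith [h4.1, h4.2]

section crossing

variable {M : ℝ} {r d : E}

omit [FiniteDimensional ℝ E] in
theorem ang_mid_r (hP : IsProfile k L q) (hr : ‖r‖ = 1) (hd : ‖d‖ = 1) (hrd : ⟪r, d⟫ = 0) :
    ang (gc r d (L / 2)) r = L / 2 := by
  have hL := hP.L_pos
  have hLπ := hP.L_lt
  have h := ang_gc_gc hr hd hrd (s := L / 2) (t := 0) (by linarith) (by linarith [Real.pi_pos])
  rwa [gc_zero, sub_zero] at h

/-- The solution lies above the profile on the inner disk tangent at the contact point. -/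
theorem inner_disk (hP : IsProfile k L q) (hk : 1 < k) (hf : SphSol k f) (hM0 : 0 < M)
    (hM : ∀ x : E, ‖x‖ = 1 → f x ≤ M) (hr : ‖r‖ = 1) (hd : ‖d‖ = 1) (hrd : ⟪r, d⟫ = 0)
    (hfr : f r = M) {x : E} (hx : ‖x‖ = 1) (hxc : ang x (gc r d (L / 2)) ≤ L / 2) :
    M * q (L / 2 - ang x (gc r d (L / 2))) ≤ f x := by
  have hL := hP.L_pos
  have hc1 := norm_gc hr hd hrd (L / 2)
  have htri := ang_triangle hx hc1 hr
  rw [ang_mid_r hP hr hd hrd] at htri
  have h1 := top_lower hP hk hf hM0 hM hr hfr hx (by linarith)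
  refine le_trans ?_ h1
  apply mul_le_mul_of_nonneg_left _ hM0.le
  have h0 := ang_nonneg x (gc r d (L / 2))
  have h0' := ang_nonneg x r
  exact hP.mono.monotoneOn ⟨by linarith, by linarith⟩ ⟨by linarith, by linarith⟩ (by linarith)

/-- The barrier from above on the annulus outside the inner disk. -/
theorem outer_bound (hP : IsProfile k L q) (hk : 1 < k) (hf : SphSol k f) (hM0 : 0 < M)
    (hM : ∀ x : E, ‖x‖ = 1 → f x ≤ M) (hr : ‖r‖ = 1) (hd : ‖d‖ = 1) (hrd : ⟪r, d⟫ = 0)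
    (hfr : f r = M) {t₁ μ : ℝ} (ht0 : 0 < t₁) (htL : t₁ < L) (hμ : 0 ≤ μ)
    (hcirc : ∀ x : E, ‖x‖ = 1 → ang x (gc r d (L / 2)) = L / 2 + t₁ → -f x ≤ μ) {x : E}
    (hx : ‖x‖ = 1) (h1 : L / 2 ≤ ang x (gc r d (L / 2)))
    (h2 : ang x (gc r d (L / 2)) ≤ L / 2 + t₁) :
    -f x ≤ μ / q t₁ * q (ang x (gc r d (L / 2)) - L / 2) := by
  have hL := hP.L_pos
  have hLπ := hP.L_lt
  have hπ := Real.pi_pos
  set c := gc r d (L / 2) with hc
  have hc1 : ‖c‖ = 1 := norm_gc hr hd hrd (L / 2)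
  set θ := ang x c with hθ
  set w := θ - L / 2 with hw
  have hw0 : 0 ≤ w := by rw [hw]; linarith
  have hwt : w ≤ t₁ := by rw [hw]; linarith
  -- the parameter tending to zero
  set out : ℝ → ℝ := fun δ => (1 + δ) * (δ + t₁) with hout
  set arg : ℝ → ℝ := fun δ => (1 + δ) * (δ + w) with harg
  have houtc : Continuous out := by simp only [hout]; fun_prop
  have hargc : Continuous arg := by simp only [harg]; fun_prop
  have hout0 : out 0 = t₁ := by simp [hout]
  have harg0 : arg 0 = w := by simp [harg]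
  have houtt : Tendsto out (𝓝[>] 0) (𝓝 t₁) := by
    have := houtc.tendsto 0
    rw [hout0] at this
    exact this.mono_left nhdsWithin_le_nhds
  have hargt : Tendsto arg (𝓝[>] 0) (𝓝 w) := by
    have := hargc.tendsto 0
    rw [harg0] at this
    exact this.mono_left nhdsWithin_le_nhds
  have hev1 : ∀ᶠ δ in 𝓝[>] (0 : ℝ), out δ < L := houtt.eventually_lt_const htL
  have hev2 : ∀ᶠ δ in 𝓝[>] (0 : ℝ), 0 < δ := eventually_mem_nhdsWithin
  have hkey : ∀ᶠ δ in 𝓝[>] (0 : ℝ), -f x ≤ μ / q (out δ) * q (arg δ) := by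
    filter_upwards [hev1, hev2] with δ h3 h4
    have hβ : 1 < 1 + δ := by linarith
    have hβ0 : 0 < 1 + δ := by linarith
    have hout0' : 0 < out δ := by
      simp only [hout]; positivity
    have hqo : 0 < q (out δ) := hP.q_pos hout0' h3.le
    have e1 : (1 + δ) * (δ - L / 2 + (L / 2 + t₁)) = out δ := by
      simp only [hout]; ring
    have e2 : (1 + δ) * (δ - L / 2 + L / 2) = (1 + δ) * δ := by ring
    have hcmp := compare_above hP hk hf.neg hc1 (b₁ := L / 2) (b₂ := L / 2 + t₁)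
      (a := δ - L / 2) (β := 1 + δ) (C := μ / q (out δ)) (by linarith) (by linarith) hβ
      (by linarith) (by rw [e1]; exact h3.le) (by positivity) ?_ ?_ x hx h1 h2
    · have e3 : (1 + δ) * (δ - L / 2 + θ) = arg δ := by
        simp only [harg, hw]; ring
      rw [e3] at hcmp
      exact hcmp
    · intro y hy hyc
      have h5 := inner_disk hP hk hf hM0 hM hr hd hrd hfr hy (by rw [← hc, hyc])
      rw [← hc, hyc, sub_self, hP.zero, mul_zero] at h5
      have h6 : 0 ≤ μ / q (out δ) * q ((1 + δ) * (δ - L / 2 + L / 2)) := by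
        apply mul_nonneg (by positivity)
        rw [e2]
        apply hP.q_nonneg (by positivity)
        have : (1 + δ) * δ ≤ out δ := by
          simp only [hout]
          apply mul_le_mul_of_nonneg_left _ hβ0.le
          linarith
        linarith
      linarith
    · intro y hy hyc
      rw [e1]
      have h5 := hcirc y hy hyc
      rw [div_mul_cancel₀ _ hqo.ne']
      exact h5
  have hqt : 0 < q t₁ := hP.q_pos ht0 htL.le
  have hlim1 : Tendsto (fun δ => q (out δ)) (𝓝[>] 0) (𝓝 (q t₁)) := by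
    apply hP.tendsto_comp ⟨ht0.le, htL.le⟩ houtt
    filter_upwards [hev1, hev2] with δ h3 h4
    refine ⟨?_, h3.le⟩
    simp only [hout]
    positivity
  have hlim2 : Tendsto (fun δ => q (arg δ)) (𝓝[>] 0) (𝓝 (q w)) := by
    apply hP.tendsto_comp ⟨hw0, by linarith⟩ hargt
    filter_upwards [hev1, hev2] with δ h3 h4
    have h5 : arg δ ≤ out δ := by
      simp only [harg, hout]
      apply mul_le_mul_of_nonneg_left _ (by linarith)
      linarith
    refine ⟨?_, by linarith⟩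
    simp only [harg]
    positivity
  have hlim : Tendsto (fun δ => μ / q (out δ) * q (arg δ)) (𝓝[>] 0) (𝓝 (μ / q t₁ * q w)) :=
    (tendsto_const_nhds.div hlim1 hqt.ne').mul hlim2
  exact ge_of_tendsto hlim hkey

omit [FiniteDimensional ℝ E] in
/-- A solution cannot have a concave-free kink at a zero: if near a point `y` at distance `ℓ`
from `c` it lies above the function `a ζ + ζ²` of `ζ = ℓ - ang x c`, it is contradicted at `y`. -/
theorem kink_contradiction {k : ℝ} {f : E → ℝ} (hf : SphSol k f) {c y : E} (hc : ‖c‖ = 1)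
    (hy : ‖y‖ = 1) {ℓ a ζ₀ : ℝ} (hyc : ang y c = ℓ) (hℓ0 : 0 < ℓ) (hℓπ : ℓ < Real.pi)
    (ha0 : 0 < a) (hζ₀ : 0 < ζ₀) (hfy : f y = 0)
    (hnear : ∀ x : E, ‖x‖ = 1 → ℓ - ζ₀ < ang x c → ang x c < ℓ + ζ₀ →
      a * (ℓ - ang x c) + (ℓ - ang x c) ^ 2 ≤ f x) : False := by
  set p : ℝ → ℝ := fun θ => a * (ℓ - θ) + (ℓ - θ) ^ 2 with hp
  have hpcd : ContDiffAt ℝ 2 p (ang y c) := by
    simp only [hp]; fun_prop
  have hE := hf.below c y p hc hy (by rw [hyc]; exact hℓ0) (by rw [hyc]; exact hℓπ) hpcd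
    (by rw [hfy, hyc]; simp [hp]) (by
      have hcg := continuous_ang_left c
      have hev1 : ∀ᶠ x in 𝓝 y, ℓ - ζ₀ < ang x c := by
        apply hcg.continuousAt.eventually_const_lt
        show ℓ - ζ₀ < ang y c
        rw [hyc]; linarith
      have hev2 : ∀ᶠ x in 𝓝 y, ang x c < ℓ + ζ₀ := by
        apply hcg.continuousAt.eventually_lt_const
        show ang y c < ℓ + ζ₀
        rw [hyc]; linarith
      filter_upwards [hev1, hev2] with x hx1 hx2 hx
      exact hnear x hx hx1 hx2)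
  have hd1 : deriv p = fun θ => -a - 2 * (ℓ - θ) := by
    funext θ
    have h1 : HasDerivAt (fun θ : ℝ => ℓ - θ) (-1) θ := by
      simpa using (hasDerivAt_id θ).const_sub ℓ
    have h2 := (h1.const_mul a).add (h1.pow 2)
    refine h2.deriv.trans ?_
    ring
  have hd2 : deriv (deriv p) = fun _ => 2 := by
    rw [hd1]
    funext θ
    have h1 : HasDerivAt (fun θ : ℝ => ℓ - θ) (-1) θ := by
      simpa using (hasDerivAt_id θ).const_sub ℓ
    have h2 := (h1.const_mul 2).const_sub (-a)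
    refine h2.deriv.trans ?_
    ring
  have hv : EE k p (ang y c) = 2 * a ^ 2 := by
    unfold EE EJ
    rw [hyc, hd2, hd1]
    simp only [hp, sub_self, mul_zero]
    ring
  rw [hv] at hE
  have : 0 < 2 * a ^ 2 := by positivity
  linarith

/-- The numerical choice of the slope `a` in the kink argument. -/
theorem kink_numbers (hP : IsProfile k L q) {M h : ℝ} (hM0 : 0 < M) (hh0 : 0 ≤ h) (hhM : h < M) :
    ∃ a > 0, ∃ ζ₀ > 0, (∀ ζ, 0 < ζ → ζ < ζ₀ → a * ζ + ζ ^ 2 ≤ M * q ζ) ∧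
      (∀ ζ, 0 < ζ → ζ < ζ₀ → h * q ζ + ζ ^ 2 ≤ a * ζ) := by
  obtain ⟨κ, hκ0, hκ⟩ := hP.slope
  have hg0 : 0 < (M - h) * κ / 2 := by
    have : 0 < M - h := by linarith
    positivity
  obtain ⟨g, hg⟩ : ∃ g, g = (M - h) * κ / 2 := ⟨_, rfl⟩
  rw [← hg] at hg0
  obtain ⟨a, ha⟩ : ∃ a, a = (h + M) * κ / 2 := ⟨_, rfl⟩
  have ha0 : 0 < a := by rw [ha]; positivity
  obtain ⟨ε, hε⟩ : ∃ ε, ε = g / (2 * (M + h + 1)) := ⟨_, rfl⟩
  have hε0 : 0 < ε := by rw [hε]; positivity
  obtain ⟨ζ₁, hζ₁, hbd⟩ := hP.slope_bounds hκ hε0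
  have hMε : M * ε ≤ g / 2 := by
    rw [hε, mul_div_assoc', div_le_div_iff₀ (by positivity) (by norm_num)]
    nlinarith
  have hhε : h * ε ≤ g / 2 := by
    rw [hε, mul_div_assoc', div_le_div_iff₀ (by positivity) (by norm_num)]
    nlinarith
  refine ⟨a, ha0, min ζ₁ (g / 2), lt_min hζ₁ (by positivity), ?_, ?_⟩
  · intro ζ h0 h1
    have h2 := (hbd ζ h0 (lt_of_lt_of_le h1 (min_le_left _ _))).1
    have h3 : ζ ≤ g / 2 := by
      have := min_le_right ζ₁ (g / 2)
      linarith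
    have h4 : M * ((κ - ε) * ζ) ≤ M * q ζ := mul_le_mul_of_nonneg_left h2 hM0.le
    have h5 : a + g = M * κ := by rw [ha, hg]; ring
    have h6 : M * ((κ - ε) * ζ) = (M * κ - M * ε) * ζ := by ring
    have h7 : (a + g / 2) * ζ ≤ (M * κ - M * ε) * ζ := by
      apply mul_le_mul_of_nonneg_right _ h0.le
      linarith
    have h8 : ζ ^ 2 ≤ g / 2 * ζ := by nlinarith
    nlinarith
  · intro ζ h0 h1
    have h2 := (hbd ζ h0 (lt_of_lt_of_le h1 (min_le_left _ _))).2
    have h3 : ζ ≤ g / 2 := by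
      have := min_le_right ζ₁ (g / 2)
      linarith
    have h4 : h * q ζ ≤ h * ((κ + ε) * ζ) := mul_le_mul_of_nonneg_left h2 hh0
    have h5 : a - g = h * κ := by rw [ha, hg]; ring
    have h6 : h * ((κ + ε) * ζ) = (h * κ + h * ε) * ζ := by ring
    have h7 : (h * κ + h * ε) * ζ ≤ (a - g / 2) * ζ := by
      apply mul_le_mul_of_nonneg_right _ h0.le
      linarith
    have h8 : ζ ^ 2 ≤ g / 2 * ζ := by nlinarith
    nlinarith

/-- The kink lemma: beyond the contact point, the negative part reaches the mirror value. -/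
theorem exists_outer_point (hP : IsProfile k L q) (hk : 1 < k) (hf : SphSol k f) (hM0 : 0 < M)
    (hM : ∀ x : E, ‖x‖ = 1 → f x ≤ M) (hr : ‖r‖ = 1) (hd : ‖d‖ = 1) (hrd : ⟪r, d⟫ = 0)
    (hfr : f r = M) (hy₀ : f (gc r d L) ≤ 0) {t₁ : ℝ} (ht0 : 0 < t₁) (htL : t₁ < L) :
    ∃ x : E, ‖x‖ = 1 ∧ ang x (gc r d (L / 2)) = L / 2 + t₁ ∧ M * q t₁ ≤ -f x := by
  have hL := hP.L_pos
  have hLπ := hP.L_lt
  have hπ := Real.pi_pos
  by_contra hcon
  push Not at hcon
  have hc1 : ‖gc r d (L / 2)‖ = 1 := norm_gc hr hd hrd (L / 2)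
  have hqt : 0 < q t₁ := hP.q_pos ht0 htL.le
  -- the maximum of `-f` on the circle
  obtain ⟨C, hC⟩ : ∃ C : Set E, C = {y : E | ‖y‖ = 1 ∧ L / 2 + t₁ ≤ ang y (gc r d (L / 2)) ∧
      ang y (gc r d (L / 2)) ≤ L / 2 + t₁} := ⟨_, rfl⟩
  have hCc : IsCompact C := by rw [hC]; exact isCompact_annulus _ _ _
  have hwC : gc r d (L + t₁) ∈ C := by
    have h := ang_gc_gc hr hd hrd (s := L + t₁) (t := L / 2) (by linarith) (by linarith)
    rw [hC]
    refine ⟨norm_gc hr hd hrd _, ?_, ?_⟩ <;> rw [h] <;> linarith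
  have hcontf : ContinuousOn (fun y => -f y) C := (hf.cont.neg).mono fun y hy => by
    rw [hC] at hy
    simpa using hy.1
  obtain ⟨x₁, hx₁, hmax⟩ := hCc.exists_isMaxOn ⟨_, hwC⟩ hcontf
  have hx₁' := hx₁
  rw [hC] at hx₁'
  obtain ⟨μ, hμdef⟩ : ∃ μ, μ = max 0 (-f x₁) := ⟨_, rfl⟩
  have hμ0 : 0 ≤ μ := by rw [hμdef]; exact le_max_left _ _
  have hMq : 0 < M * q t₁ := mul_pos hM0 hqt
  have hμlt : μ < M * q t₁ := by
    rw [hμdef]
    exact max_lt hMq (hcon x₁ hx₁'.1 (le_antisymm hx₁'.2.2 hx₁'.2.1))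
  have hcirc : ∀ x : E, ‖x‖ = 1 → ang x (gc r d (L / 2)) = L / 2 + t₁ → -f x ≤ μ := by
    intro x hx hxc
    have hxC : x ∈ C := by
      rw [hC]; exact ⟨hx, hxc.ge, hxc.le⟩
    have := hmax hxC
    simp only [mem_ofPred_eq] at this
    rw [hμdef]
    exact le_trans this (le_max_right _ _)
  obtain ⟨h, hh⟩ : ∃ h, h = μ / q t₁ := ⟨_, rfl⟩
  have hh0 : 0 ≤ h := by rw [hh]; positivity
  have hhM : h < M := by
    rw [hh, div_lt_iff₀ hqt]; exact hμlt
  obtain ⟨a, ha0, ζ₀, hζ₀, hin, hout⟩ := kink_numbers hP hM0 hh0 hhM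
  -- the contact point
  have hy₁ : ‖gc r d L‖ = 1 := norm_gc hr hd hrd L
  have hyc : ang (gc r d L) (gc r d (L / 2)) = L / 2 := by
    have h' := ang_gc_gc hr hd hrd (s := L) (t := L / 2) (by linarith) (by linarith)
    rw [h']; ring
  have hy0' : 0 ≤ f (gc r d L) := by
    have h5 := inner_disk hP hk hf hM0 hM hr hd hrd hfr hy₁ (by rw [hyc])
    rw [hyc, sub_self, hP.zero, mul_zero] at h5
    exact h5
  have hy0 : f (gc r d L) = 0 := le_antisymm hy₀ hy0'
  -- the comparison near the contact point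
  apply kink_contradiction hf hc1 hy₁ (ℓ := L / 2) (a := a) (ζ₀ := min ζ₀ t₁) hyc (by linarith)
    (by linarith) ha0 (lt_min hζ₀ ht0) hy0
  intro x hx hx1 hx2
  have hm1 : min ζ₀ t₁ ≤ ζ₀ := min_le_left _ _
  have hm2 : min ζ₀ t₁ ≤ t₁ := min_le_right _ _
  rcases le_or_gt (ang x (gc r d (L / 2))) (L / 2) with hle | hgt
  · -- inside the disk
    have h5 := inner_disk hP hk hf hM0 hM hr hd hrd hfr hx hle
    rcases hle.eq_or_lt with heq | hlt
    · rw [heq] at h5 ⊢
      simp only [sub_self, hP.zero, mul_zero] at h5 ⊢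
      simpa using h5
    · exact le_trans (hin _ (by linarith) (by linarith)) h5
  · -- outside the disk
    have h5 := outer_bound hP hk hf hM0 hM hr hd hrd hfr ht0 htL hμ0 hcirc hx hgt.le
      (by linarith)
    rw [← hh] at h5
    have h6 := hout (ang x (gc r d (L / 2)) - L / 2) (by linarith) (by linarith)
    have e1 : (L / 2 - ang x (gc r d (L / 2))) ^ 2 = (ang x (gc r d (L / 2)) - L / 2) ^ 2 := by
      ring
    rw [e1]
    nlinarith

/-- Consequence: the negative extreme is at least the positive extreme. -/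
theorem neg_extreme_ge (hP : IsProfile k L q) (hk : 1 < k) (hf : SphSol k f) (hM0 : 0 < M)
    (hM : ∀ x : E, ‖x‖ = 1 → f x ≤ M) (hr : ‖r‖ = 1) (hd : ‖d‖ = 1) (hrd : ⟪r, d⟫ = 0)
    (hfr : f r = M) (hy₀ : f (gc r d L) ≤ 0) {m : ℝ} (hm : ∀ x : E, ‖x‖ = 1 → -f x ≤ m) :
    M ≤ m := by
  have hL := hP.L_pos
  have hkey : ∀ᶠ t in 𝓝[<] L, M * q t ≤ m := by
    have h1 : Ioo 0 L ∈ 𝓝[<] L := Ioo_mem_nhdsLT hL
    filter_upwards [h1] with t ht
    obtain ⟨x, hx, -, h2⟩ := exists_outer_point hP hk hf hM0 hM hr hd hrd hfr hy₀ ht.1 ht.2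
    exact le_trans h2 (hm x hx)
  have hlim : Tendsto (fun t => M * q t) (𝓝[<] L) (𝓝 (M * q L)) := by
    apply Tendsto.const_mul
    apply hP.tendsto_comp (g := fun t => t) ⟨hL.le, le_rfl⟩
      (tendsto_id.mono_left nhdsWithin_le_nhds)
    have h1 : Ioo 0 L ∈ 𝓝[<] L := Ioo_mem_nhdsLT hL
    filter_upwards [h1] with t ht
    exact ⟨ht.1.le, ht.2.le⟩
  rw [hP.top, mul_one] at hlim
  exact le_of_tendsto hlim hkey

/-- When the two extremes agree, the point found above is on the great circle through the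
contact point. -/
theorem crossing_point (hP : IsProfile k L q) (hk : 1 < k) (hf : SphSol k f) (hM0 : 0 < M)
    (hM : ∀ x : E, ‖x‖ = 1 → f x ≤ M) (hm : ∀ x : E, ‖x‖ = 1 → -f x ≤ M) (hr : ‖r‖ = 1)
    (hd : ‖d‖ = 1) (hrd : ⟪r, d⟫ = 0) (hfr : f r = M) (hy₀ : f (gc r d L) ≤ 0) {t₁ : ℝ}
    (ht0 : 0 < t₁) (htL : t₁ < L) : M * q t₁ ≤ -f (gc r d (L + t₁)) := by
  have hL := hP.L_pos
  have hLπ := hP.L_lt
  have hπ := Real.pi_pos
  obtain ⟨x, hx, hxc, hval⟩ := exists_outer_point hP hk hf hM0 hM hr hd hrd hfr hy₀ ht0 htL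
  have hqt : 0 < q t₁ := hP.q_pos ht0 htL.le
  have hMq : 0 < M * q t₁ := mul_pos hM0 hqt
  set c := gc r d (L / 2) with hc
  have hc1 : ‖c‖ = 1 := norm_gc hr hd hrd (L / 2)
  set θ := ang x r with hθ
  have hθge : L + t₁ ≤ θ := by
    by_contra hcon
    push Not at hcon
    rcases le_or_gt θ L with hle | hgt
    · have h1 := top_lower hP hk hf hM0 hM hr hfr hx hle
      have h2 := hP.q_nonneg (t := L - θ) (by linarith) (by linarith [ang_nonneg x r])
      have := mul_nonneg hM0.le h2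
      linarith
    · have hrx : ang r x = θ := ang_comm _ _
      obtain ⟨n, hn, hrn, hnx⟩ := exists_between hr hx (by rw [hrx]; linarith) hL.le
        (by rw [hrx]; exact hgt.le)
      rw [hrx] at hnx
      have hnr : ang n r = L := by rw [ang_comm]; exact hrn
      have h1 := top_lower hP hk hf hM0 hM hr hfr hn hnr.le
      rw [hnr, sub_self, hP.zero, mul_zero] at h1
      have hxn : ang x n = θ - L := by rw [ang_comm]; exact hnx
      have h2 := le_profile hP hk hf.neg hM0 hm hn le_rfl (a := 0)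
        (by rw [hP.zero, mul_zero]; linarith) hx (by rw [hxn]; linarith)
      rw [hxn, zero_add] at h2
      have h3 : q (θ - L) < q t₁ :=
        hP.mono ⟨by linarith, by linarith⟩ ⟨ht0.le, htL.le⟩ (by linarith)
      have h4 := mul_lt_mul_of_pos_left h3 hM0
      linarith
  have hθle : θ ≤ L + t₁ := by
    have htri := ang_triangle hx hc1 hr
    rw [ang_mid_r hP hr hd hrd] at htri
    rw [hθ]
    linarith
  have hθeq : θ = L + t₁ := le_antisymm hθle hθge
  -- the algebra identifying `x`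
  have hxr : ⟪x, r⟫ = Real.cos (L + t₁) := by
    rw [← hθeq, hθ, cos_ang hx hr]
  have hxcc : ⟪x, c⟫ = Real.cos (L / 2 + t₁) := by
    rw [← hxc, cos_ang hx hc1]
  have hs : 0 < Real.sin (L / 2) :=
    Real.sin_pos_of_pos_of_lt_pi (by linarith) (by linarith)
  have hexp : ⟪x, c⟫ = Real.cos (L / 2) * ⟪x, r⟫ + Real.sin (L / 2) * ⟪x, d⟫ := by
    rw [hc]; unfold gc
    rw [inner_add_right, real_inner_smul_right, real_inner_smul_right]
  have hcos : Real.cos (L / 2 + t₁) = Real.cos (L + t₁) * Real.cos (L / 2)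
      + Real.sin (L + t₁) * Real.sin (L / 2) := by
    rw [← Real.cos_sub]
    congr 1
    ring
  have hxd : ⟪x, d⟫ = Real.sin (L + t₁) := by
    rw [hxcc, hxr, hcos] at hexp
    have : Real.sin (L / 2) * (⟪x, d⟫ - Real.sin (L + t₁)) = 0 := by linarith
    rcases mul_eq_zero.mp this with h | h
    · exact absurd h hs.ne'
    · linarith
  have hw1 : ‖gc r d (L + t₁)‖ = 1 := norm_gc hr hd hrd _
  have hxw : ⟪x, gc r d (L + t₁)⟫ = 1 := by
    unfold gc
    rw [inner_add_right, real_inner_smul_right, real_inner_smul_right, hxr, hxd]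
    have := Real.sin_sq_add_cos_sq (L + t₁)
    nlinarith
  have hsq : ‖x - gc r d (L + t₁)‖ ^ 2 = 0 := by
    rw [@norm_sub_sq_real, hx, hw1, hxw]
    norm_num
  have hzero : ‖x - gc r d (L + t₁)‖ = 0 := pow_eq_zero_iff (two_ne_zero) |>.mp hsq
  have heq : x = gc r d (L + t₁) := sub_eq_zero.mp (norm_eq_zero.mp hzero)
  rw [← heq]
  exact hval

/-- The mirror point at distance `2 L` along the great circle is a negative extreme. -/
theorem crossing_limit (hP : IsProfile k L q) (hk : 1 < k) (hf : SphSol k f) (hM0 : 0 < M)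
    (hM : ∀ x : E, ‖x‖ = 1 → f x ≤ M) (hm : ∀ x : E, ‖x‖ = 1 → -f x ≤ M) (hr : ‖r‖ = 1)
    (hd : ‖d‖ = 1) (hrd : ⟪r, d⟫ = 0) (hfr : f r = M) (hy₀ : f (gc r d L) ≤ 0) :
    M ≤ -f (gc r d (2 * L)) := by
  have hL := hP.L_pos
  have h1 : Ioo 0 L ∈ 𝓝[<] L := Ioo_mem_nhdsLT hL
  have hkey : ∀ᶠ t in 𝓝[<] L, M * q t ≤ -f (gc r d (L + t)) := by
    filter_upwards [h1] with t ht
    exact crossing_point hP hk hf hM0 hM hm hr hd hrd hfr hy₀ ht.1 ht.2
  have hlim : Tendsto (fun t => M * q t) (𝓝[<] L) (𝓝 (M * q L)) := by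
    apply Tendsto.const_mul
    apply hP.tendsto_comp (g := fun t => t) ⟨hL.le, le_rfl⟩
      (tendsto_id.mono_left nhdsWithin_le_nhds)
    filter_upwards [h1] with t ht
    exact ⟨ht.1.le, ht.2.le⟩
  rw [hP.top, mul_one] at hlim
  have hgc : Tendsto (fun t => gc r d (L + t)) (𝓝[<] L) (𝓝 (gc r d (2 * L))) := by
    have hc : Continuous fun t => gc r d (L + t) :=
      (continuous_gc r d).comp (continuous_const.add continuous_id)
    have h2 := hc.tendsto L
    have e : L + L = 2 * L := by ring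
    simp only [e] at h2
    exact h2.mono_left nhdsWithin_le_nhds
  have hS : gc r d (2 * L) ∈ Metric.sphere (0 : E) 1 := by
    simpa using norm_gc hr hd hrd (2 * L)
  have hlim2 : Tendsto (fun t => -f (gc r d (L + t))) (𝓝[<] L) (𝓝 (-f (gc r d (2 * L)))) := by
    have h3 : Tendsto (fun t => gc r d (L + t)) (𝓝[<] L)
        (𝓝[Metric.sphere (0 : E) 1] (gc r d (2 * L))) := by
      apply tendsto_nhdsWithin_iff.mpr ⟨hgc, Eventually.of_forall fun t => ?_⟩
      simpa using norm_gc hr hd hrd (L + t)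
    exact ((hf.cont _ hS).tendsto.comp h3).neg
  exact le_of_tendsto_of_tendsto hlim hlim2 hkey

/-- In any direction orthogonal to a top point there is a negative extreme at distance `2 L`
whose component in that direction is nonnegative. -/
theorem exists_crossing (hdim : 2 ≤ Module.finrank ℝ E) (hP : IsProfile k L q) (hk : 1 < k)
    (hf : SphSol k f) (hM0 : 0 < M) (hM : ∀ x : E, ‖x‖ = 1 → f x ≤ M)
    (hm : ∀ x : E, ‖x‖ = 1 → -f x ≤ M) (hr : ‖r‖ = 1) (hfr : f r = M) {ξ : E} (hξ : ‖ξ‖ = 1)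
    (hrξ : ⟪r, ξ⟫ = 0) :
    ∃ w : E, ‖w‖ = 1 ∧ -f w = M ∧ ang w r = 2 * L ∧ 0 ≤ ⟪ξ, w⟫ := by
  have hL := hP.L_pos
  have hLπ := hP.L_lt
  have hπ := Real.pi_pos
  obtain ⟨y, hy, hyr, hfy, hξy⟩ := exists_contact hdim hP hk hf hM0 hM hr hfr hξ hrξ
  obtain ⟨d, hd, hrd, hyd⟩ := exists_gc_of_ang hr hy (by rw [hyr]; exact hL)
    (by rw [hyr]; linarith)
  rw [hyr] at hyd
  have hξr : ⟪ξ, r⟫ = 0 := by rw [real_inner_comm]; exact hrξ
  have hξd : 0 ≤ ⟪ξ, d⟫ := by
    rw [hyd] at hξy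
    unfold gc at hξy
    rw [inner_add_right, real_inner_smul_right, real_inner_smul_right, hξr, mul_zero,
      zero_add] at hξy
    have hs := Real.sin_pos_of_pos_of_lt_pi hL (by linarith)
    by_contra hneg
    push Not at hneg
    have := mul_neg_of_pos_of_neg hs hneg
    linarith
  rw [hyd] at hfy
  have hlim := crossing_limit hP hk hf hM0 hM hm hr hd hrd hfr hfy
  refine ⟨gc r d (2 * L), norm_gc hr hd hrd _, le_antisymm (hm _ (norm_gc hr hd hrd _)) hlim, ?_, ?_⟩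
  · have h := ang_gc_gc hr hd hrd (s := 2 * L) (t := 0) (by linarith) (by linarith)
    rwa [gc_zero, sub_zero] at h
  · unfold gc
    rw [inner_add_right, real_inner_smul_right, real_inner_smul_right, hξr, mul_zero, zero_add]
    exact mul_nonneg (Real.sin_pos_of_pos_of_lt_pi (by linarith) (by linarith)).le hξd

end crossing

end Vale.Agent.Lib.P080
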