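import Mathlib

/-!
# Infinity-harmonic functions (viscosity sense)
-/

namespace Vale.Agent.Lib.P080

open scoped Gradient

/-- The (unnormalized) infinity Laplacian `⟨D²φ(x) ∇φ(x), ∇φ(x)⟩`. -/
noncomputable def infLap {E : Type*} [NormedAddCommGroup E] [InnerProductSpace ℝ E]
    [CompleteSpace E] (φ : E → ℝ) (x : E) : ℝ :=
  fderiv ℝ (fderiv ℝ φ) x (gradient φ x) (gradient φ x)

/-- `u` is a viscosity solution of `Δ_∞ u = 0` on `Ω`: it is continuous on `Ω`, and for each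
test function `φ` that is `C²` near a point `z ∈ Ω`: if `u - φ` has a local maximum at `z` then
`Δ_∞ φ(z) ≥ 0`, and if `u - φ` has a local minimum at `z` then `Δ_∞ φ(z) ≤ 0`. -/
def IsInfHarmonic {E : Type*} [NormedAddCommGroup E] [InnerProductSpace ℝ E]
    [CompleteSpace E] (u : E → ℝ) (Ω : Set E) : Prop :=
  ContinuousOn u Ω ∧
    ∀ (φ : E → ℝ) (z : E), z ∈ Ω → ContDiffAt ℝ 2 φ z →
      (IsLocalMax (fun x => u x - φ x) z → 0 ≤ infLap φ z) ∧
      (IsLocalMin (fun x => u x - φ x) z → infLap φ z ≤ 0)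

end Vale.Agent.Lib.P080
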