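import Vale.Agent.Lib.P080.Crossing

/-!
# The final convexity argument, and the sphere-level vanishing theorem
-/

namespace Vale.Agent.Lib.P080

open Filter Topology Set
open scoped RealInnerProductSpace

variable {E : Type*} [NormedAddCommGroup E] [InnerProductSpace ℝ E]
  [FiniteDimensional ℝ E] {k L : ℝ} {q : ℝ → ℝ} {f : E → ℝ}

omit [FiniteDimensional ℝ E] in
/-- Points of the convex hulls keep the positive pairing of the generating sets. -/
theorem inner_hull_ge {P Q : Set E} {c : ℝ} (h : ∀ p ∈ P, ∀ a ∈ Q, c ≤ ⟪p, a⟫) :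
    ∀ ρ ∈ convexHull ℝ P, ∀ α ∈ convexHull ℝ Q, c ≤ ⟪ρ, α⟫ := by
  have h1 : ∀ a ∈ Q, ∀ ρ ∈ convexHull ℝ P, c ≤ ⟪ρ, a⟫ := by
    intro a ha
    have hconv : Convex ℝ {ρ : E | c ≤ ⟪ρ, a⟫} := by
      apply convex_halfSpace_ge
      exact ⟨fun x y => inner_add_left x y a, fun t x => by
        rw [real_inner_smul_left]; rfl⟩
    exact fun ρ hρ => convexHull_min (fun p hp => h p hp a ha) hconv hρ
  intro ρ hρ
  have hconv : Convex ℝ {α : E | c ≤ ⟪ρ, α⟫} := by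
    apply convex_halfSpace_ge
    exact ⟨fun x y => inner_add_right ρ x y, fun t x => by
      rw [real_inner_smul_right]; rfl⟩
  exact fun α hα => convexHull_min (fun a ha => h1 a ha ρ hρ) hconv hα

/-- If all inner products between two compact sets of unit vectors are negative then
there is an open hemisphere containing the first set and whose opposite contains the second. -/
theorem exists_hemisphere {T₁ T₂ : Set E} (h₁ : IsCompact T₁) (h₂ : IsCompact T₂)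
    (hn₁ : T₁.Nonempty) (hn₂ : T₂.Nonempty) (hu₁ : ∀ x ∈ T₁, ‖x‖ = 1) (hu₂ : ∀ x ∈ T₂, ‖x‖ = 1)
    (hneg : ∀ r ∈ T₁, ∀ w ∈ T₂, ⟪r, w⟫ < 0) :
    ∃ v : E, (∀ r ∈ T₁, 0 < ⟪v, r⟫) ∧ (∀ w ∈ T₂, ⟪v, w⟫ < 0) := by
  have : CompleteSpace E := FiniteDimensional.complete ℝ E
  -- uniform negativity
  have hcontp : ContinuousOn (fun p : E × E => ⟪p.1, -p.2⟫) (T₁ ×ˢ T₂) := by
    apply Continuous.continuousOn
    exact continuous_fst.inner continuous_snd.neg
  obtain ⟨p₀, hp₀, hmin⟩ := (h₁.prod h₂).exists_isMinOn (hn₁.prod hn₂) hcontp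
  set c := ⟪p₀.1, -p₀.2⟫ with hc
  have hcpos : 0 < c := by
    rw [hc, inner_neg_right]
    have := hneg p₀.1 hp₀.1 p₀.2 hp₀.2
    linarith
  set Q : Set E := (fun x => -x) '' T₂ with hQ
  have hPQ : ∀ p ∈ T₁, ∀ a ∈ Q, c ≤ ⟪p, a⟫ := by
    rintro p hp _ ⟨w, hw, rfl⟩
    exact hmin (Set.mk_mem_prod hp hw)
  have hhull := inner_hull_ge hPQ
  have hQn : Q.Nonempty := hn₂.image _
  have hball₁ : convexHull ℝ T₁ ⊆ Metric.closedBall 0 1 :=
    convexHull_min (fun x hx => by simp [hu₁ x hx]) (convex_closedBall _ _)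
  have hball₂ : convexHull ℝ Q ⊆ Metric.closedBall 0 1 := by
    apply convexHull_min _ (convex_closedBall _ _)
    rintro _ ⟨w, hw, rfl⟩
    simp [hu₂ w hw]
  -- lower bound on norms in the hull of the union
  have hbd : ∀ x ∈ convexHull ℝ (T₁ ∪ Q), c / 2 ≤ ‖x‖ := by
    intro x hx
    rw [convexHull_union hn₁ hQn, mem_convexJoin] at hx
    obtain ⟨ρ, hρ, α, hα, hx⟩ := hx
    obtain ⟨a, b, ha, hb, hab, rfl⟩ := hx
    have h1 := hhull ρ hρ α hα
    have hρ1 : ‖ρ‖ ≤ 1 := by simpa using hball₁ hρ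
    have hα1 : ‖α‖ ≤ 1 := by simpa using hball₂ hα
    have hin : c ≤ ⟪a • ρ + b • α, ρ + α⟫ := by
      have e : ⟪a • ρ + b • α, ρ + α⟫
          = a * (⟪ρ, ρ⟫ + ⟪ρ, α⟫) + b * (⟪ρ, α⟫ + ⟪α, α⟫) := by
        simp only [inner_add_left, inner_add_right, real_inner_smul_left]
        rw [real_inner_comm ρ α]
        ring
      rw [e]
      have h2 : 0 ≤ ⟪ρ, ρ⟫ := real_inner_self_nonneg
      have h3 : 0 ≤ ⟪α, α⟫ := real_inner_self_nonneg
      have h4 : a * c ≤ a * (⟪ρ, ρ⟫ + ⟪ρ, α⟫) := mul_le_mul_of_nonneg_left (by linarith) ha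
      have h5 : b * c ≤ b * (⟪ρ, α⟫ + ⟪α, α⟫) := mul_le_mul_of_nonneg_left (by linarith) hb
      have h6 : a * c + b * c = c := by rw [← add_mul, hab, one_mul]
      linarith
    have h7 := real_inner_le_norm (a • ρ + b • α) (ρ + α)
    have h8 : ‖ρ + α‖ ≤ 2 := by
      have := norm_add_le ρ α
      linarith
    have h9 := norm_nonneg (a • ρ + b • α)
    have h10 : ‖a • ρ + b • α‖ * ‖ρ + α‖ ≤ ‖a • ρ + b • α‖ * 2 :=
      mul_le_mul_of_nonneg_left h8 h9
    linarith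
  set K := closure (convexHull ℝ (T₁ ∪ Q)) with hK
  have hKconv : Convex ℝ K := (convex_convexHull ℝ _).closure
  have hKcl : IsClosed K := isClosed_closure
  have hK0 : (0 : E) ∉ K := by
    intro h0
    have hsub : K ⊆ {x : E | c / 2 ≤ ‖x‖} :=
      closure_minimal hbd (isClosed_le continuous_const continuous_norm)
    have := hsub h0
    simp only [mem_ofPred_eq, norm_zero] at this
    linarith
  obtain ⟨g, u, hu0, hg⟩ := geometric_hahn_banach_point_closed hKconv hKcl hK0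
  rw [map_zero] at hu0
  set v := (InnerProductSpace.toDual ℝ E).symm g with hv
  have hvg : ∀ x, ⟪v, x⟫ = g x := fun x => by
    rw [hv, InnerProductSpace.toDual_symm_apply]
  refine ⟨v, fun r hr => ?_, fun w hw => ?_⟩
  · rw [hvg]
    have : r ∈ K := subset_closure (subset_convexHull ℝ _ (Or.inl hr))
    linarith [hg r this]
  · have hmem : -w ∈ K := subset_closure (subset_convexHull ℝ _ (Or.inr ⟨w, hw, rfl⟩))
    have h1 := hg _ hmem
    rw [map_neg] at h1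
    rw [hvg]
    linarith

/-- Top and bottom points are at distance at least `2 L`, hence have negative inner product. -/
theorem inner_top_bottom_neg (hP : IsProfile k L q) (hk : 1 < k) (hf : SphSol k f) {M : ℝ}
    (hM0 : 0 < M) (hM : ∀ x : E, ‖x‖ = 1 → f x ≤ M) (hm : ∀ x : E, ‖x‖ = 1 → -f x ≤ M) {r w : E}
    (hr : ‖r‖ = 1) (hw : ‖w‖ = 1) (hfr : f r = M) (hfw : -f w = M) : ⟪r, w⟫ < 0 := by
  have hL := hP.L_pos
  have hLπ := hP.L_lt
  have hLg := hP.L_gt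
  have hπ := Real.pi_pos
  have hfar : 2 * L ≤ ang r w := by
    by_contra hcon
    push Not at hcon
    have h0 := ang_nonneg r w
    obtain ⟨n, hn, hrn, hnw⟩ := exists_between hr hw (t := ang r w / 2) (by linarith)
      (by linarith) (by linarith)
    have hnr : ang n r = ang r w / 2 := by rw [ang_comm]; exact hrn
    have hnw' : ang n w = ang r w / 2 := by rw [hnw]; ring
    have h1 := top_lower hP hk hf hM0 hM hr hfr hn (by rw [hnr]; linarith)
    have h2 := top_lower hP hk hf.neg hM0 hm hw hfw hn (by rw [hnw']; linarith)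
    have h3 := hP.q_pos (t := L - ang n r) (by rw [hnr]; linarith) (by rw [hnr]; linarith)
    have h4 := hP.q_pos (t := L - ang n w) (by rw [hnw']; linarith) (by rw [hnw']; linarith)
    have h5 := mul_pos hM0 h3
    have h6 := mul_pos hM0 h4
    linarith
  rw [← cos_ang hr hw]
  apply Real.cos_neg_of_pi_div_two_lt_of_lt
  · linarith
  · have := ang_le_pi r w
    linarith

/-- There is no sphere solution having both extremes equal to a positive `M`. -/
theorem no_extremes (hdim : 2 ≤ Module.finrank ℝ E) (hP : IsProfile k L q) (hk : 1 < k)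
    (hf : SphSol k f) {M : ℝ} (hM0 : 0 < M) (hM : ∀ x : E, ‖x‖ = 1 → f x ≤ M)
    (hm : ∀ x : E, ‖x‖ = 1 → -f x ≤ M) {r₀ w₀ : E} (hr₀ : ‖r₀‖ = 1) (hw₀ : ‖w₀‖ = 1)
    (hfr₀ : f r₀ = M) (hfw₀ : -f w₀ = M) : False := by
  have hL := hP.L_pos
  have hLπ := hP.L_lt
  have hπ := Real.pi_pos
  have hS : IsCompact (Metric.sphere (0 : E) 1) := isCompact_sphere 0 1
  set T₁ : Set E := Metric.sphere (0 : E) 1 ∩ f ⁻¹' {M} with hT₁
  set T₂ : Set E := Metric.sphere (0 : E) 1 ∩ (fun x => -f x) ⁻¹' {M} with hT₂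
  have hT₁c : IsCompact T₁ :=
    hS.of_isClosed_subset (hf.cont.preimage_isClosed_of_isClosed hS.isClosed isClosed_singleton)
      inter_subset_left
  have hT₂c : IsCompact T₂ :=
    hS.of_isClosed_subset
      (hf.neg.cont.preimage_isClosed_of_isClosed hS.isClosed isClosed_singleton) inter_subset_left
  have hu₁ : ∀ x ∈ T₁, ‖x‖ = 1 := fun x hx => by simpa using hx.1
  have hu₂ : ∀ x ∈ T₂, ‖x‖ = 1 := fun x hx => by simpa using hx.1
  have hv₁ : ∀ x ∈ T₁, f x = M := fun x hx => hx.2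
  have hv₂ : ∀ x ∈ T₂, -f x = M := fun x hx => hx.2
  have hmem₁ : ∀ x : E, ‖x‖ = 1 → f x = M → x ∈ T₁ := fun x hx hv => ⟨by simpa using hx, hv⟩
  have hmem₂ : ∀ x : E, ‖x‖ = 1 → -f x = M → x ∈ T₂ := fun x hx hv => ⟨by simpa using hx, hv⟩
  obtain ⟨v, hvpos, hvneg⟩ := exists_hemisphere hT₁c hT₂c ⟨r₀, hmem₁ _ hr₀ hfr₀⟩
    ⟨w₀, hmem₂ _ hw₀ hfw₀⟩ hu₁ hu₂ (fun r hr w hw =>
      inner_top_bottom_neg hP hk hf hM0 hM hm (hu₁ r hr) (hu₂ w hw) (hv₁ r hr) (hv₂ w hw))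
  -- the extreme point of the union
  set F : Set E := T₁ ∪ (fun x => -x) '' T₂ with hF
  have hFc : IsCompact F := hT₁c.union (hT₂c.image continuous_neg)
  have hFu : ∀ x ∈ F, ‖x‖ = 1 := by
    rintro x (hx | ⟨w, hw, rfl⟩)
    · exact hu₁ x hx
    · rw [norm_neg]; exact hu₂ w hw
  have hFpos : ∀ x ∈ F, 0 < ⟪v, x⟫ := by
    rintro x (hx | ⟨w, hw, rfl⟩)
    · exact hvpos x hx
    · simp only [inner_neg_right]
      have := hvneg w hw
      linarith
  have hcont : ContinuousOn (fun x : E => ⟪v, x⟫) F :=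
    (continuous_const.inner continuous_id).continuousOn
  obtain ⟨x₀, hx₀, hmin⟩ := hFc.exists_isMinOn ⟨r₀, Or.inl (hmem₁ _ hr₀ hfr₀)⟩ hcont
  have hx₀1 := hFu x₀ hx₀
  set c₀ := ⟪v, x₀⟫ with hc₀
  have hc₀pos : 0 < c₀ := hFpos x₀ hx₀
  set ξ₀ := v - c₀ • x₀ with hξ₀
  have hxx := inner_self_one hx₀1
  have hx₀ξ₀ : ⟪x₀, ξ₀⟫ = 0 := by
    rw [hξ₀, inner_sub_right, real_inner_smul_right, hxx, real_inner_comm, ← hc₀]
    ring
  have hFξ₀ : ∀ x ∈ F, x ≠ x₀ → 0 < ⟪ξ₀, x⟫ := by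
    intro x hx hne
    have hx1 := hFu x hx
    have h1 := hmin hx
    simp only [mem_ofPred_eq] at h1
    have h2 : ⟪ξ₀, x⟫ = ⟪v, x⟫ - c₀ * ⟪x₀, x⟫ := by
      rw [hξ₀, inner_sub_left, real_inner_smul_left]
    have h3 : ⟪x₀, x⟫ < 1 := by
      have h4 : 0 < ‖x₀ - x‖ := norm_pos_iff.mpr (sub_ne_zero.mpr (Ne.symm hne))
      have h5 : ‖x₀ - x‖ ^ 2 = 2 - 2 * ⟪x₀, x⟫ := by
        rw [@norm_sub_sq_real, hx₀1, hx1]; ring
      have h6 : 0 < ‖x₀ - x‖ ^ 2 := by positivity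
      linarith
    rw [h2]
    have h7 : c₀ * ⟪x₀, x⟫ < c₀ * 1 := mul_lt_mul_of_pos_left h3 hc₀pos
    linarith
  -- a unit vector with the same properties
  obtain ⟨ξ, hξ, hx₀ξ, hFξ⟩ : ∃ ξ : E, ‖ξ‖ = 1 ∧ ⟪x₀, ξ⟫ = 0 ∧
      ∀ x ∈ F, x ≠ x₀ → 0 < ⟪ξ, x⟫ := by
    by_cases hzero : ξ₀ = 0
    · obtain ⟨e, he, hxe⟩ := exists_orthogonal_unit hdim x₀
      refine ⟨e, he, hxe, fun x hx hne => ?_⟩
      have := hFξ₀ x hx hne
      rw [hzero, inner_zero_left] at this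
      exact absurd this (lt_irrefl _)
    · have hn : 0 < ‖ξ₀‖ := norm_pos_iff.mpr hzero
      refine ⟨(‖ξ₀‖)⁻¹ • ξ₀, ?_, ?_, fun x hx hne => ?_⟩
      · rw [norm_smul, norm_inv, norm_norm, inv_mul_cancel₀ hn.ne']
      · rw [real_inner_smul_right, hx₀ξ₀, mul_zero]
      · rw [real_inner_smul_left]
        exact mul_pos (inv_pos.mpr hn) (hFξ₀ x hx hne)
  have hang_ne : ∀ a b : E, ‖a‖ = 1 → b = -a → ang b a ≠ 2 * L := by
    intro a b ha hb h
    have h1 := cos_ang (x := b) (y := a) (by rw [hb, norm_neg]; exact ha) ha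
    rw [hb, inner_neg_left, inner_self_one ha] at h1
    rw [← hb] at h1
    rw [h] at h1
    have h2 : Real.cos (2 * L) = -1 := h1
    have h3 : Real.cos Real.pi = -1 := Real.cos_pi
    have h4 : 2 * L < Real.pi := by linarith
    have h5 := Real.cos_lt_cos_of_nonneg_of_le_pi (by linarith) le_rfl h4
    rw [h2, h3] at h5
    exact lt_irrefl _ h5
  rcases hx₀ with hx₀T | ⟨w₁, hw₁, hx₀w⟩
  · -- the extreme point is a top point
    obtain ⟨w, hw, hfw, hwr, hξw⟩ := exists_crossing hdim hP hk hf hM0 hM hm hx₀1 (hv₁ _ hx₀T) hξ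
      hx₀ξ
    have hmemF : -w ∈ F := Or.inr ⟨w, hmem₂ _ hw hfw, rfl⟩
    have hne : -w ≠ x₀ := by
      intro h
      exact hang_ne x₀ w hx₀1 (by rw [← h, neg_neg]) hwr
    have := hFξ _ hmemF hne
    rw [inner_neg_right] at this
    linarith
  · -- the extreme point is the opposite of a bottom point
    have hx₀w' : x₀ = -w₁ := hx₀w.symm
    have hw₁1 := hu₂ w₁ hw₁
    have hfw₁ := hv₂ w₁ hw₁
    have hm' : ∀ x : E, ‖x‖ = 1 → -(fun x => -f x) x ≤ M := by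
      intro x hx
      simp only [neg_neg]
      exact hM x hx
    have hξ' : ‖-ξ‖ = 1 := by rw [norm_neg]; exact hξ
    have hw₁ξ : ⟪w₁, -ξ⟫ = 0 := by
      rw [inner_neg_right]
      rw [hx₀w', inner_neg_left] at hx₀ξ
      linarith
    obtain ⟨w, hw, hfw, hwr, hξw⟩ := exists_crossing (f := fun x => -f x) hdim hP hk hf.neg hM0 hm
      hm' hw₁1 hfw₁ hξ' hw₁ξ
    have hfw' : f w = M := by
      simp only [neg_neg] at hfw
      exact hfw
    have hmemF : w ∈ F := Or.inl (hmem₁ _ hw hfw')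
    have hne : w ≠ x₀ := by
      intro h
      rw [hx₀w'] at h
      exact hang_ne w₁ w hw₁1 h hwr
    have := hFξ _ hmemF hne
    rw [inner_neg_left] at hξw
    linarith

/-- The vanishing theorem on the sphere. -/
theorem sphSol_eq_zero (hdim : 2 ≤ Module.finrank ℝ E) (hP : IsProfile k L q) (hk : 1 < k)
    (hf : SphSol k f) : ∀ x : E, ‖x‖ = 1 → f x = 0 := by
  have hL := hP.L_pos
  have hLπ := hP.L_lt
  have hπ := Real.pi_pos
  have hS : IsCompact (Metric.sphere (0 : E) 1) := isCompact_sphere 0 1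
  obtain ⟨e, he, -⟩ := exists_orthogonal_unit hdim (0 : E)
  have heS : e ∈ Metric.sphere (0 : E) 1 := by simpa using he
  obtain ⟨x₁, hx₁, hmax₁⟩ := hS.exists_isMaxOn ⟨e, heS⟩ hf.cont
  obtain ⟨x₂, hx₂, hmax₂⟩ := hS.exists_isMaxOn ⟨e, heS⟩ hf.neg.cont
  have hx₁1 : ‖x₁‖ = 1 := by simpa using hx₁
  have hx₂1 : ‖x₂‖ = 1 := by simpa using hx₂
  have hM₁ : ∀ x : E, ‖x‖ = 1 → f x ≤ f x₁ := fun x hx => hmax₁ (by simpa using hx)
  have hM₂ : ∀ x : E, ‖x‖ = 1 → -f x ≤ -f x₂ := fun x hx => hmax₂ (by simpa using hx)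
  -- the comparison of the extremes
  have hcmp : ∀ g : E → ℝ, SphSol k g → ∀ r : E, ‖r‖ = 1 → 0 < g r →
      (∀ x : E, ‖x‖ = 1 → g x ≤ g r) → ∀ m, (∀ x : E, ‖x‖ = 1 → -g x ≤ m) → g r ≤ m := by
    intro g hg r hr hpos hmaxg m hm
    obtain ⟨ξ, hξ, hrξ⟩ := exists_orthogonal_unit hdim r
    obtain ⟨y, hy, hyr, hfy, -⟩ := exists_contact hdim hP hk hg hpos hmaxg hr rfl hξ hrξ
    obtain ⟨d, hd, hrd, hyd⟩ := exists_gc_of_ang hr hy (by rw [hyr]; exact hL)
      (by rw [hyr]; linarith)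
    rw [hyr] at hyd
    rw [hyd] at hfy
    exact neg_extreme_ge hP hk hg hpos hmaxg hr hd hrd rfl hfy hm
  have hcase : 0 < f x₁ → -f x₂ ≤ 0 → False := by
    intro h1 h2
    have := hcmp f hf x₁ hx₁1 h1 hM₁ (-f x₂) hM₂
    linarith
  have hboth : 0 < f x₁ → 0 < -f x₂ → False := by
    intro h1 h2
    have h3 := hcmp f hf x₁ hx₁1 h1 hM₁ (-f x₂) hM₂
    have h4 := hcmp (fun x => -f x) hf.neg x₂ hx₂1 h2 hM₂ (f x₁) (fun x hx => by
      simp only [neg_neg]; exact hM₁ x hx)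
    have heq : f x₁ = -f x₂ := le_antisymm h3 h4
    exact no_extremes hdim hP hk hf h1 hM₁ (fun x hx => by rw [heq]; exact hM₂ x hx) hx₁1 hx₂1
      rfl heq.symm
  have hcase2 : 0 < -f x₂ → f x₁ ≤ 0 → False := by
    intro h1 h2
    have h4 := hcmp (fun x => -f x) hf.neg x₂ hx₂1 h1 hM₂ (f x₁) (fun x hx => by
      simp only [neg_neg]; exact hM₁ x hx)
    linarith
  have hn₁ : f x₁ ≤ 0 := by
    by_contra hcon
    push Not at hcon
    rcases le_or_gt (-f x₂) 0 with h | h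
    · exact hcase hcon h
    · exact hboth hcon h
  have hn₂ : -f x₂ ≤ 0 := by
    by_contra hcon
    push Not at hcon
    exact hcase2 hcon hn₁
  intro x hx
  have h1 := hM₁ x hx
  have h2 := hM₂ x hx
  linarith

end Vale.Agent.Lib.P080
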