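import Vale.Agent.Lib.P080.Final

/-!
# From homogeneous viscosity solutions to the sphere-level condition
-/

namespace Vale.Agent.Lib.P080

open Filter Topology Set InnerProductGeometry
open scoped RealInnerProductSpace

variable {E : Type*} [NormedAddCommGroup E] [InnerProductSpace ℝ E]

/-- The radial projection is continuous at unit vectors and fixes them. -/
theorem tendsto_radial {x₀ : E} (hx : ‖x₀‖ = 1) :
    Tendsto (fun x : E => (‖x‖)⁻¹ • x) (𝓝 x₀) (𝓝 x₀) := by
  have h : ContinuousAt (fun x : E => (‖x‖)⁻¹ • x) x₀ := by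
    apply ContinuousAt.smul _ continuousAt_id
    apply ContinuousAt.inv₀ continuous_norm.continuousAt
    rw [hx]; norm_num
  have := h.tendsto
  simpa [hx] using this

/-- The homogeneous extension of a bound on the sphere. -/
theorem eventually_homog {k : ℝ} {u : E → ℝ} {z x₀ : E} {p : ℝ → ℝ} {R : ℝ → ℝ → Prop}
    (hz : ‖z‖ = 1) (hx : ‖x₀‖ = 1)
    (hom : ∀ (t : ℝ) (x : E), 0 < t → x ≠ 0 → u (t • x) = t ^ k * u x)
    (hR : ∀ a b t : ℝ, 0 < t → R a b → R (t * a) (t * b))
    (hle : ∀ᶠ x in 𝓝 x₀, ‖x‖ = 1 → R (u x) (p (ang x z))) :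
    ∀ᶠ x in 𝓝 x₀, R (u x) (barrier k p z x) := by
  have h0 : x₀ ≠ 0 := by
    intro h; rw [h, norm_zero] at hx; norm_num at hx
  have hne : ∀ᶠ x in 𝓝 x₀, x ≠ 0 := isOpen_ne.eventually_mem h0
  have hpull := (tendsto_radial hx).eventually hle
  filter_upwards [hne, hpull] with x hx0 hx2
  have hn : 0 < ‖x‖ := norm_pos_iff.mpr hx0
  have hy1 : ‖(‖x‖)⁻¹ • x‖ = 1 := by
    rw [norm_smul, norm_inv, norm_norm, inv_mul_cancel₀ hn.ne']
  have hy := hx2 hy1
  have hang : ang ((‖x‖)⁻¹ • x) z = angle x z := by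
    rw [ang_eq_angle hy1 hz, angle_smul_left_of_pos _ _ (inv_pos.mpr hn)]
  rw [hang] at hy
  have hyne : (‖x‖)⁻¹ • x ≠ 0 := by
    intro h; rw [h, norm_zero] at hy1; norm_num at hy1
  have hxy : x = ‖x‖ • ((‖x‖)⁻¹ • x) := by
    rw [smul_smul, mul_inv_cancel₀ hn.ne', one_smul]
  have hu : u x = ‖x‖ ^ k * u ((‖x‖)⁻¹ • x) := by
    conv_lhs => rw [hxy]
    exact hom _ _ hn hyne
  rw [hu, barrier_eq k p hz hx0]
  exact hR _ _ _ (Real.rpow_pos_of_pos hn k) hy

/-- A homogeneous viscosity solution satisfies the sphere-level condition. -/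
theorem sphSol_of_infHarmonic [CompleteSpace E] {k : ℝ} {u : E → ℝ}
    (hu : IsInfHarmonic u {x : E | x ≠ 0})
    (hom : ∀ (t : ℝ) (x : E), 0 < t → x ≠ 0 → u (t • x) = t ^ k * u x) : SphSol k u := by
  refine ⟨hu.1.mono fun x hx => ?_, ?_, ?_⟩
  · intro h
    rw [h] at hx
    simp at hx
  · intro z x₀ p hz hx h0 hπ hp hval hle
    have hθ : angle x₀ z = ang x₀ z := (ang_eq_angle hx hz).symm
    have hx0 : x₀ ≠ 0 := by
      intro h; rw [h, norm_zero] at hx; norm_num at hx
    have hcd := barrier_contDiffAt (k := k) hz hx hθ h0 hπ hp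
    have hb0 : barrier k p z x₀ = u x₀ := by
      rw [barrier_eq k p hz hx0, hx, Real.one_rpow, one_mul, hθ, hval]
    have hmax : IsLocalMax (fun x => u x - barrier k p z x) x₀ := by
      have hev := eventually_homog (R := fun a b => a ≤ b) hz hx hom
        (fun a b t ht hab => mul_le_mul_of_nonneg_left hab ht.le) hle
      filter_upwards [hev] with x hx'
      rw [hb0, sub_self]
      linarith
    have h1 := ((hu.2 _ x₀ hx0 hcd).1 hmax)
    rw [infLap_barrier hz hx hθ h0 hπ hp] at h1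
    exact h1
  · intro z x₀ p hz hx h0 hπ hp hval hle
    have hθ : angle x₀ z = ang x₀ z := (ang_eq_angle hx hz).symm
    have hx0 : x₀ ≠ 0 := by
      intro h; rw [h, norm_zero] at hx; norm_num at hx
    have hcd := barrier_contDiffAt (k := k) hz hx hθ h0 hπ hp
    have hb0 : barrier k p z x₀ = u x₀ := by
      rw [barrier_eq k p hz hx0, hx, Real.one_rpow, one_mul, hθ, hval]
    have hmin : IsLocalMin (fun x => u x - barrier k p z x) x₀ := by
      have hev := eventually_homog (R := fun a b => b ≤ a) hz hx hom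
        (fun a b t ht hab => mul_le_mul_of_nonneg_left hab ht.le) hle
      filter_upwards [hev] with x hx'
      rw [hb0, sub_self]
      linarith
    have h1 := ((hu.2 _ x₀ hx0 hcd).2 hmin)
    rw [infLap_barrier hz hx hθ h0 hπ hp] at h1
    exact h1

/-- The main theorem, on a general finite-dimensional inner product space. -/
theorem homogeneous_eq_zero [FiniteDimensional ℝ E] (hdim : 2 ≤ Module.finrank ℝ E) {k : ℝ}
    (hk1 : 1 < k) (hk2 : k < 4 / 3) {u : E → ℝ} (hu : IsInfHarmonic (E := E) u {x : E | x ≠ 0})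
    (hom : ∀ (t : ℝ) (x : E), 0 < t → x ≠ 0 → u (t • x) = t ^ k * u x) {x : E} (hx : x ≠ 0) :
    u x = 0 := by
  obtain ⟨L, q, hP⟩ := exists_profile hk1 hk2
  have hS := sphSol_of_infHarmonic hu hom
  have hn : 0 < ‖x‖ := norm_pos_iff.mpr hx
  have hy1 : ‖(‖x‖)⁻¹ • x‖ = 1 := by
    rw [norm_smul, norm_inv, norm_norm, inv_mul_cancel₀ hn.ne']
  have hyne : (‖x‖)⁻¹ • x ≠ 0 := by
    intro h; rw [h, norm_zero] at hy1; norm_num at hy1
  have hxy : x = ‖x‖ • ((‖x‖)⁻¹ • x) := by
    rw [smul_smul, mul_inv_cancel₀ hn.ne', one_smul]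
  have h0 := sphSol_eq_zero hdim hP hk1 hS _ hy1
  rw [hxy, hom _ _ hn hyne, h0, mul_zero]

end Vale.Agent.Lib.P080
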