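import Vale.Agent.Lib.P080.Barrier

/-!
# The exact profile

For `1 < k < 4/3`, put `s = √(k / (k - 1)) > 2`.  The function `q` below is defined through the
parametrization (in `γ ∈ [0, π]`)
`q = s ^ k * cos γ * N ^ (-k)`, `t = L - (ψ γ - γ / s)`, where `N² = s² cos² γ + sin² γ` and
`ψ γ = arccos (s cos γ / N)`. It solves the ODE of `k`-homogeneous infinity-harmonic functions
in the angle variable.
-/

namespace Vale.Agent.Lib.P080

open Filter Topology Set

/-- `N² = s² cos² γ + sin² γ`. -/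
noncomputable def N2 (s γ : ℝ) : ℝ := s ^ 2 * Real.cos γ ^ 2 + Real.sin γ ^ 2

/-- `N ^ (-k)`. -/
noncomputable def XX (s k γ : ℝ) : ℝ := (N2 s γ) ^ (-(k / 2))

/-- The value of the profile in the parametrization. -/
noncomputable def qhat (s k γ : ℝ) : ℝ := s ^ k * Real.cos γ * XX s k γ

/-- `1 / N`. -/
noncomputable def YY (s γ : ℝ) : ℝ := (N2 s γ) ^ (-(1 / 2 : ℝ))

/-- `s cos γ / N`. -/
noncomputable def ww (s γ : ℝ) : ℝ := s * Real.cos γ * YY s γ

/-- The angle of the parametrization: `arccos (s cos γ / N) - γ / s`. -/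
noncomputable def phi (s γ : ℝ) : ℝ := Real.arccos (ww s γ) - γ / s

/-- The first derivative of the profile, in the parametrization. -/
noncomputable def Q1 (s k γ : ℝ) : ℝ := s ^ k * (s / (s ^ 2 - 1)) * Real.sin γ * XX s k γ

/-- The second derivative of the profile, in the parametrization. -/
noncomputable def Q2 (s k γ : ℝ) : ℝ :=
  -(s ^ k * (s / (s ^ 2 - 1)) * s * Real.cos γ * XX s k γ * (s ^ 2 + Real.sin γ ^ 2)
    / ((s ^ 2 - 1) * Real.sin γ ^ 2))

/-- The half-width of the profile: `(π / 2) (1 - 1 / s)`. -/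
noncomputable def LL (s : ℝ) : ℝ := Real.pi / 2 * (1 - 1 / s)

section basic

variable {s k : ℝ}

theorem N2_pos (hs : 2 < s) (γ : ℝ) : 0 < N2 s γ := by
  unfold N2
  have h := Real.sin_sq_add_cos_sq γ
  have h1 : 0 ≤ s ^ 2 - 1 := by nlinarith
  nlinarith [mul_nonneg h1 (sq_nonneg (Real.cos γ))]

theorem continuous_N2 (s : ℝ) : Continuous (N2 s) := by
  unfold N2; fun_prop

theorem hasDerivAt_N2 (s γ : ℝ) :
    HasDerivAt (N2 s) (-(2 * (s ^ 2 - 1) * Real.sin γ * Real.cos γ)) γ := by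
  unfold N2
  have h1 := ((Real.hasDerivAt_cos γ).pow 2).const_mul (s ^ 2)
  have h2 := (Real.hasDerivAt_sin γ).pow 2
  refine (h1.add h2).congr_deriv ?_
  ring

theorem hasDerivAt_XX (hs : 2 < s) (hk : k * (s ^ 2 - 1) = s ^ 2) (γ : ℝ) :
    HasDerivAt (XX s k) (s ^ 2 * Real.sin γ * Real.cos γ * XX s k γ / N2 s γ) γ := by
  have hN := N2_pos hs γ
  have h := (hasDerivAt_N2 s γ).rpow_const (p := -(k / 2)) (Or.inl hN.ne')
  refine h.congr_deriv ?_
  unfold XX
  rw [Real.rpow_sub_one hN.ne']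
  have : s ^ 2 * Real.sin γ * Real.cos γ = k * (s ^ 2 - 1) * Real.sin γ * Real.cos γ := by rw [hk]
  rw [this]
  field_simp

theorem hasDerivAt_YY (hs : 2 < s) (γ : ℝ) :
    HasDerivAt (YY s) ((s ^ 2 - 1) * Real.sin γ * Real.cos γ * YY s γ / N2 s γ) γ := by
  have hN := N2_pos hs γ
  have h := (hasDerivAt_N2 s γ).rpow_const (p := -(1 / 2 : ℝ)) (Or.inl hN.ne')
  refine h.congr_deriv ?_
  unfold YY
  rw [Real.rpow_sub_one hN.ne']
  field_simp

theorem YY_pos (hs : 2 < s) (γ : ℝ) : 0 < YY s γ := Real.rpow_pos_of_pos (N2_pos hs γ) _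

theorem YY_sq (hs : 2 < s) (γ : ℝ) : YY s γ ^ 2 = (N2 s γ)⁻¹ := by
  unfold YY
  rw [← Real.rpow_natCast, ← Real.rpow_mul (N2_pos hs γ).le]
  norm_num
  exact Real.rpow_neg_one _

theorem XX_pos (hs : 2 < s) (γ : ℝ) : 0 < XX s k γ := Real.rpow_pos_of_pos (N2_pos hs γ) _

theorem continuous_XX (hs : 2 < s) : Continuous (XX s k) :=
  (continuous_N2 s).rpow_const fun γ => Or.inl (N2_pos hs γ).ne'

theorem continuous_YY (hs : 2 < s) : Continuous (YY s) :=
  (continuous_N2 s).rpow_const fun γ => Or.inl (N2_pos hs γ).ne'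

theorem hasDerivAt_qhat (hs : 2 < s) (hk : k * (s ^ 2 - 1) = s ^ 2) (γ : ℝ) :
    HasDerivAt (qhat s k) (-(s ^ k * Real.sin γ ^ 3 * XX s k γ / N2 s γ)) γ := by
  have h := ((Real.hasDerivAt_cos γ).const_mul (s ^ k)).mul (hasDerivAt_XX hs hk γ)
  refine h.congr_deriv ?_
  have hN := N2_pos hs γ
  have hc := Real.sin_sq_add_cos_sq γ
  have e : N2 s γ = s ^ 2 * Real.cos γ ^ 2 + Real.sin γ ^ 2 := rfl
  field_simp
  rw [e]
  ring

theorem hasDerivAt_ww (hs : 2 < s) (γ : ℝ) :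
    HasDerivAt (ww s) (-(s * Real.sin γ * YY s γ / N2 s γ)) γ := by
  have h := ((Real.hasDerivAt_cos γ).const_mul s).mul (hasDerivAt_YY hs γ)
  refine h.congr_deriv ?_
  have hN := N2_pos hs γ
  have hc := Real.sin_sq_add_cos_sq γ
  have e : N2 s γ = s ^ 2 * Real.cos γ ^ 2 + Real.sin γ ^ 2 := rfl
  field_simp
  rw [e]
  have e2 : Real.cos γ ^ 2 = 1 - Real.sin γ ^ 2 := by linarith
  ring_nf
  rw [e2]
  ring

theorem one_sub_ww_sq (hs : 2 < s) (γ : ℝ) :
    1 - ww s γ ^ 2 = Real.sin γ ^ 2 * YY s γ ^ 2 := by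
  have hN := N2_pos hs γ
  have e : N2 s γ = s ^ 2 * Real.cos γ ^ 2 + Real.sin γ ^ 2 := rfl
  unfold ww
  rw [mul_pow, YY_sq hs]
  field_simp
  rw [e]
  ring

theorem sqrt_one_sub_ww_sq (hs : 2 < s) {γ : ℝ} (h0 : 0 < γ) (hπ : γ < Real.pi) :
    Real.sqrt (1 - ww s γ ^ 2) = Real.sin γ * YY s γ := by
  rw [one_sub_ww_sq hs, ← mul_pow]
  exact Real.sqrt_sq (mul_pos (Real.sin_pos_of_pos_of_lt_pi h0 hπ) (YY_pos hs γ)).le

theorem ww_sq_lt_one (hs : 2 < s) {γ : ℝ} (h0 : 0 < γ) (hπ : γ < Real.pi) : ww s γ ^ 2 < 1 := by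
  have h := one_sub_ww_sq hs γ
  have h1 := Real.sin_pos_of_pos_of_lt_pi h0 hπ
  have h2 := YY_pos hs γ
  have : 0 < Real.sin γ ^ 2 * YY s γ ^ 2 := by positivity
  linarith

theorem hasDerivAt_phi (hs : 2 < s) {γ : ℝ} (h0 : 0 < γ) (hπ : γ < Real.pi) :
    HasDerivAt (phi s) ((s ^ 2 - 1) * Real.sin γ ^ 2 / (s * N2 s γ)) γ := by
  have hN := N2_pos hs γ
  have hsin := Real.sin_pos_of_pos_of_lt_pi h0 hπ
  have hY := YY_pos hs γ
  have hlt := ww_sq_lt_one hs h0 hπ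
  have hw1 : ww s γ ≠ -1 := by
    intro h; rw [h] at hlt; norm_num at hlt
  have hw2 : ww s γ ≠ 1 := by
    intro h; rw [h] at hlt; norm_num at hlt
  have h1 := (Real.hasDerivAt_arccos hw1 hw2).comp γ (hasDerivAt_ww hs γ)
  have h2 := (hasDerivAt_id γ).div_const s
  have h3 := h1.sub h2
  refine h3.congr_deriv ?_
  rw [sqrt_one_sub_ww_sq hs h0 hπ]
  have hs0 : s ≠ 0 := by linarith
  have e : N2 s γ = s ^ 2 * Real.cos γ ^ 2 + Real.sin γ ^ 2 := rfl
  have hc := Real.sin_sq_add_cos_sq γ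
  field_simp
  rw [e]
  have e2 : Real.cos γ ^ 2 = 1 - Real.sin γ ^ 2 := by linarith
  rw [e2]
  ring

theorem continuous_phi (hs : 2 < s) : Continuous (phi s) := by
  unfold phi ww
  have := continuous_YY hs
  have h2 : Continuous fun γ => s * Real.cos γ * YY s γ := by fun_prop
  exact (Real.continuous_arccos.comp h2).sub (continuous_id.div_const s)

theorem phi_zero (hs : 2 < s) : phi s 0 = 0 := by
  have hs0 : 0 < s := by linarith
  have h : YY s 0 = s⁻¹ := by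
    have h1 := YY_sq hs 0
    have h2 := YY_pos hs 0
    have e : N2 s 0 = s ^ 2 := by simp [N2]
    rw [e] at h1
    have h3 : (YY s 0 - s⁻¹) * (YY s 0 + s⁻¹) = 0 := by
      have : (s ^ 2)⁻¹ = (s⁻¹) ^ 2 := by rw [inv_pow]
      rw [this] at h1
      linear_combination h1
    rcases mul_eq_zero.mp h3 with h4 | h4
    · linarith
    · have : 0 < s⁻¹ := inv_pos.mpr hs0
      linarith
  unfold phi ww
  rw [h]
  have : s * Real.cos 0 * s⁻¹ = 1 := by
    simp; field_simp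
  rw [this]
  simp

theorem phi_pi_div_two : phi s (Real.pi / 2) = LL s := by
  unfold phi ww LL
  simp only [Real.cos_pi_div_two, mul_zero, zero_mul, Real.arccos_zero]
  ring

theorem phi_pi (hs : 2 < s) : phi s Real.pi = 2 * LL s := by
  have hs0 : 0 < s := by linarith
  have h : YY s Real.pi = s⁻¹ := by
    have h1 := YY_sq hs Real.pi
    have h2 := YY_pos hs Real.pi
    have e : N2 s Real.pi = s ^ 2 := by simp [N2]
    rw [e] at h1
    have h3 : (YY s Real.pi - s⁻¹) * (YY s Real.pi + s⁻¹) = 0 := by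
      have : (s ^ 2)⁻¹ = (s⁻¹) ^ 2 := by rw [inv_pow]
      rw [this] at h1
      linear_combination h1
    rcases mul_eq_zero.mp h3 with h4 | h4
    · linarith
    · have : 0 < s⁻¹ := inv_pos.mpr hs0
      linarith
  unfold phi ww LL
  rw [h]
  have : s * Real.cos Real.pi * s⁻¹ = -1 := by
    simp; field_simp
  rw [this, Real.arccos_neg_one]
  ring

theorem LL_pos (hs : 2 < s) : 0 < LL s := by
  unfold LL
  have h1 : 1 / s < 1 := by
    rw [div_lt_one (by linarith)]; linarith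
  have := Real.pi_pos
  apply mul_pos (by positivity) (by linarith)

theorem LL_gt (hs : 2 < s) : Real.pi / 4 < LL s := by
  unfold LL
  have h1 : 1 / s < 1 / 2 := by
    apply one_div_lt_one_div_of_lt (by norm_num) hs
  have := Real.pi_pos
  nlinarith

theorem LL_lt (hs : 2 < s) : LL s < Real.pi / 2 := by
  unfold LL
  have h1 : 0 < 1 / s := by
    apply one_div_pos.mpr (by linarith)
  have := Real.pi_pos
  nlinarith

theorem phi_strictMonoOn (hs : 2 < s) : StrictMonoOn (phi s) (Icc 0 Real.pi) := by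
  apply strictMonoOn_of_deriv_pos (convex_Icc _ _) (continuous_phi hs).continuousOn
  intro γ hγ
  rw [interior_Icc] at hγ
  rw [(hasDerivAt_phi hs hγ.1 hγ.2).deriv]
  have hN := N2_pos hs γ
  have hsin := Real.sin_pos_of_pos_of_lt_pi hγ.1 hγ.2
  have hs2 : 0 < s ^ 2 - 1 := by nlinarith
  have hs0 : 0 < s := by linarith
  positivity

theorem qhat_strictAntiOn (hs : 2 < s) (hk : k * (s ^ 2 - 1) = s ^ 2) :
    StrictAntiOn (qhat s k) (Icc 0 Real.pi) := by
  apply strictAntiOn_of_deriv_neg (convex_Icc _ _)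
  · exact fun γ _ => (hasDerivAt_qhat hs hk γ).continuousAt.continuousWithinAt
  · intro γ hγ
    rw [interior_Icc] at hγ
    rw [(hasDerivAt_qhat hs hk γ).deriv]
    have hN := N2_pos hs γ
    have hsin := Real.sin_pos_of_pos_of_lt_pi hγ.1 hγ.2
    have hX := XX_pos (k := k) hs γ
    have hs0 : 0 < s := by linarith
    have : 0 < s ^ k * Real.sin γ ^ 3 * XX s k γ / N2 s γ := by positivity
    linarith

theorem qhat_zero (hs : 2 < s) : qhat s k 0 = 1 := by
  have hs0 : 0 < s := by linarith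
  unfold qhat XX
  have e : N2 s 0 = s ^ 2 := by simp [N2]
  rw [e, ← Real.rpow_natCast, ← Real.rpow_mul hs0.le]
  simp only [Real.cos_zero, mul_one]
  rw [← Real.rpow_add hs0]
  norm_num
  ring_nf
  simp

theorem qhat_pi_div_two (s k : ℝ) : qhat s k (Real.pi / 2) = 0 := by
  simp [qhat]

/-- The derivative of `qhat` is `- Q1 * phi'`. -/
theorem qhat_deriv_eq (hs : 2 < s) {γ : ℝ} :
    -(s ^ k * Real.sin γ ^ 3 * XX s k γ / N2 s γ)
      = -(Q1 s k γ * ((s ^ 2 - 1) * Real.sin γ ^ 2 / (s * N2 s γ))) := by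
  have hN := N2_pos hs γ
  have hs0 : s ≠ 0 := by linarith
  have hs2 : s ^ 2 - 1 ≠ 0 := by nlinarith
  unfold Q1
  field_simp

theorem hasDerivAt_Q1_aux (hs : 2 < s) (hk : k * (s ^ 2 - 1) = s ^ 2) (γ : ℝ) :
    HasDerivAt (Q1 s k) (s ^ k * (s / (s ^ 2 - 1)) * Real.cos γ * XX s k γ
      * (s ^ 2 + Real.sin γ ^ 2) / N2 s γ) γ := by
  have h := ((Real.hasDerivAt_sin γ).const_mul (s ^ k * (s / (s ^ 2 - 1)))).mul
    (hasDerivAt_XX hs hk γ)
  refine h.congr_deriv ?_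
  have hN := N2_pos hs γ
  have hs0 : s ≠ 0 := by linarith
  have hs2 : s ^ 2 - 1 ≠ 0 := by nlinarith
  have e : N2 s γ = s ^ 2 * Real.cos γ ^ 2 + Real.sin γ ^ 2 := rfl
  have hc := Real.sin_sq_add_cos_sq γ
  field_simp
  rw [e]
  linear_combination (Real.cos γ * XX s k γ * s ^ 2) * hc

theorem continuous_Q1 (hs : 2 < s) : Continuous (Q1 s k) := by
  unfold Q1
  have := continuous_XX (k := k) hs
  fun_prop

theorem continuousOn_Q2 (hs : 2 < s) : ContinuousOn (Q2 s k) (Ioo 0 Real.pi) := by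
  unfold Q2
  have hX := continuous_XX (k := k) hs
  have hs2 : s ^ 2 - 1 ≠ 0 := by nlinarith
  apply ContinuousOn.neg
  apply ContinuousOn.div
  · apply Continuous.continuousOn; fun_prop
  · apply Continuous.continuousOn; fun_prop
  · intro γ hγ
    have := Real.sin_pos_of_pos_of_lt_pi hγ.1 hγ.2
    positivity

/-- The algebraic identity behind the ODE. -/
theorem ode_identity (hs : 2 < s) (hk : k * (s ^ 2 - 1) = s ^ 2) {γ : ℝ} (h0 : 0 < γ)
    (hπ : γ < Real.pi) :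
    EJ k (qhat s k γ) (Q1 s k γ) (Q2 s k γ) = 0 := by
  have hsin := Real.sin_pos_of_pos_of_lt_pi h0 hπ
  have hs2 : s ^ 2 - 1 ≠ 0 := by nlinarith
  have hs0 : s ≠ 0 := by linarith
  have hkk : k = s ^ 2 / (s ^ 2 - 1) := by
    field_simp; linarith
  unfold EJ qhat Q1 Q2
  set A := s ^ k
  set X := XX s k γ
  set S := Real.sin γ
  set C := Real.cos γ
  have hc : C ^ 2 = 1 - S ^ 2 := by
    have := Real.sin_sq_add_cos_sq γ
    simp only [S, C]; linarith
  rw [hkk]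
  field_simp
  have hc3 : C ^ 3 = C * (1 - S ^ 2) := by rw [← hc]; ring
  ring_nf
  simp only [hc3]
  ring

end basic

section inverse

variable {s k : ℝ}

/-- The inverse of `phi s` on `[0, π]`. -/
noncomputable def Gam (s y : ℝ) : ℝ := Function.invFunOn (phi s) (Icc 0 Real.pi) y

theorem Gam_spec (hs : 2 < s) {y : ℝ} (h0 : 0 ≤ y) (h1 : y ≤ 2 * LL s) :
    Gam s y ∈ Icc 0 Real.pi ∧ phi s (Gam s y) = y := by
  have hex : y ∈ phi s '' Icc 0 Real.pi := by
    have h := intermediate_value_Icc Real.pi_pos.le (continuous_phi hs).continuousOn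
    apply h
    rw [phi_zero hs, phi_pi hs]
    exact ⟨h0, h1⟩
  exact ⟨Function.invFunOn_mem hex, Function.invFunOn_eq hex⟩

theorem Gam_phi (hs : 2 < s) {γ : ℝ} (hγ : γ ∈ Icc 0 Real.pi) : Gam s (phi s γ) = γ := by
  have hm := (phi_strictMonoOn hs).monotoneOn
  have h0 : 0 ≤ phi s γ := by
    have := hm ⟨le_rfl, Real.pi_pos.le⟩ hγ hγ.1
    rwa [phi_zero hs] at this
  have h1 : phi s γ ≤ 2 * LL s := by
    have := hm hγ ⟨Real.pi_pos.le, le_rfl⟩ hγ.2
    rwa [phi_pi hs] at this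
  obtain ⟨h2, h3⟩ := Gam_spec hs h0 h1
  exact (phi_strictMonoOn hs).injOn h2 hγ h3

theorem Gam_strictMonoOn (hs : 2 < s) : StrictMonoOn (Gam s) (Icc 0 (2 * LL s)) := by
  intro a ha b hb hab
  obtain ⟨h1, h2⟩ := Gam_spec hs ha.1 ha.2
  obtain ⟨h3, h4⟩ := Gam_spec hs hb.1 hb.2
  by_contra hcon
  push Not at hcon
  have := (phi_strictMonoOn hs).monotoneOn h3 h1 hcon
  rw [h2, h4] at this
  linarith

theorem Gam_mem_Ioo (hs : 2 < s) {y : ℝ} (h0 : 0 < y) (h1 : y < 2 * LL s) :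
    Gam s y ∈ Ioo 0 Real.pi := by
  obtain ⟨⟨h2, h3⟩, h4⟩ := Gam_spec hs h0.le h1.le
  constructor
  · rcases h2.eq_or_lt with h | h
    · rw [← h, phi_zero hs] at h4; linarith
    · exact h
  · rcases h3.eq_or_lt with h | h
    · rw [h, phi_pi hs] at h4; linarith
    · exact h

theorem Gam_continuousAt (hs : 2 < s) {y : ℝ} (h0 : 0 < y) (h1 : y < 2 * LL s) :
    ContinuousAt (Gam s) y := by
  have hmono : StrictMonoOn (Gam s) (Ioo 0 (2 * LL s)) :=
    (Gam_strictMonoOn hs).mono Ioo_subset_Icc_self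
  apply hmono.continuousAt_of_image_mem_nhds (Ioo_mem_nhds h0 h1)
  have hm := Gam_mem_Ioo hs h0 h1
  apply mem_of_superset (Ioo_mem_nhds hm.1 hm.2)
  intro γ hγ
  have hγ' : γ ∈ Icc 0 Real.pi := Ioo_subset_Icc_self hγ
  refine ⟨phi s γ, ⟨?_, ?_⟩, Gam_phi hs hγ'⟩
  · have := (phi_strictMonoOn hs) ⟨le_rfl, Real.pi_pos.le⟩ hγ' hγ.1
    rwa [phi_zero hs] at this
  · have := (phi_strictMonoOn hs) hγ' ⟨Real.pi_pos.le, le_rfl⟩ hγ.2
    rwa [phi_pi hs] at this

theorem phi_deriv_pos (hs : 2 < s) {γ : ℝ} (h0 : 0 < γ) (hπ : γ < Real.pi) :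
    0 < (s ^ 2 - 1) * Real.sin γ ^ 2 / (s * N2 s γ) := by
  have hN := N2_pos hs γ
  have hsin := Real.sin_pos_of_pos_of_lt_pi h0 hπ
  have hs2 : 0 < s ^ 2 - 1 := by nlinarith
  have hs0 : 0 < s := by linarith
  positivity

theorem hasDerivAt_Gam (hs : 2 < s) {y : ℝ} (h0 : 0 < y) (h1 : y < 2 * LL s) :
    HasDerivAt (Gam s)
      ((s ^ 2 - 1) * Real.sin (Gam s y) ^ 2 / (s * N2 s (Gam s y)))⁻¹ y := by
  have hm := Gam_mem_Ioo hs h0 h1
  apply HasDerivAt.of_local_left_inverse (Gam_continuousAt hs h0 h1)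
    (hasDerivAt_phi hs hm.1 hm.2) (phi_deriv_pos hs hm.1 hm.2).ne'
  filter_upwards [Ioo_mem_nhds h0 h1] with z hz
  exact (Gam_spec hs hz.1.le hz.2.le).2

/-- The reflected inverse: `γ` as a function of `t`. -/
noncomputable def GG (s t : ℝ) : ℝ := Gam s (LL s - t)

theorem GG_mem_Ioo (hs : 2 < s) {t : ℝ} (h0 : -LL s < t) (h1 : t < LL s) :
    GG s t ∈ Ioo 0 Real.pi :=
  Gam_mem_Ioo hs (by linarith) (by linarith)

theorem hasDerivAt_GG (hs : 2 < s) {t : ℝ} (h0 : -LL s < t) (h1 : t < LL s) :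
    HasDerivAt (GG s) (-((s ^ 2 - 1) * Real.sin (GG s t) ^ 2 / (s * N2 s (GG s t)))⁻¹) t := by
  have h := (hasDerivAt_Gam hs (y := LL s - t) (by linarith) (by linarith)).comp t
    ((hasDerivAt_id t).const_sub (LL s))
  refine h.congr_deriv ?_
  simp only [GG]
  ring

/-- The profile. -/
noncomputable def qq (s k t : ℝ) : ℝ := qhat s k (GG s t)

theorem hasDerivAt_qq (hs : 2 < s) (hk : k * (s ^ 2 - 1) = s ^ 2) {t : ℝ} (h0 : -LL s < t)
    (h1 : t < LL s) : HasDerivAt (qq s k) (Q1 s k (GG s t)) t := by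
  have h := (hasDerivAt_qhat hs hk (GG s t)).comp t (hasDerivAt_GG hs h0 h1)
  refine h.congr_deriv ?_
  have hm := GG_mem_Ioo hs h0 h1
  have hp := (phi_deriv_pos hs hm.1 hm.2).ne'
  rw [qhat_deriv_eq hs, neg_mul_neg, mul_assoc, mul_inv_cancel₀ hp, mul_one]

theorem hasDerivAt_Q1_GG (hs : 2 < s) (hk : k * (s ^ 2 - 1) = s ^ 2) {t : ℝ} (h0 : -LL s < t)
    (h1 : t < LL s) : HasDerivAt (fun t => Q1 s k (GG s t)) (Q2 s k (GG s t)) t := by
  have h := (hasDerivAt_Q1_aux hs hk (GG s t)).comp t (hasDerivAt_GG hs h0 h1)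
  refine h.congr_deriv ?_
  have hm := GG_mem_Ioo hs h0 h1
  have hsin := Real.sin_pos_of_pos_of_lt_pi hm.1 hm.2
  have hN := N2_pos hs (GG s t)
  have hs0 : s ≠ 0 := by linarith
  have hs2 : s ^ 2 - 1 ≠ 0 := by nlinarith
  unfold Q2
  field_simp

/-- A criterion for being `C²` at a point, in terms of explicit derivatives. -/
theorem contDiffAt_two_of_deriv {f f₁ f₂ : ℝ → ℝ} {U : Set ℝ} {t : ℝ} (hU : IsOpen U)
    (ht : t ∈ U) (h1 : ∀ x ∈ U, HasDerivAt f (f₁ x) x) (h2 : ∀ x ∈ U, HasDerivAt f₁ (f₂ x) x)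
    (h3 : ContinuousOn f₂ U) : ContDiffAt ℝ 2 f t := by
  have hd1 : Set.EqOn (deriv f) f₁ U := fun x hx => (h1 x hx).deriv
  have hd2 : Set.EqOn (deriv f₁) f₂ U := fun x hx => (h2 x hx).deriv
  have hc1 : ContDiffOn ℝ 1 f₁ U := by
    have : ContDiffOn ℝ (0 + 1) f₁ U := by
      rw [contDiffOn_succ_iff_deriv_of_isOpen hU]
      refine ⟨fun x hx => (h2 x hx).differentiableAt.differentiableWithinAt, by simp, ?_⟩
      rw [contDiffOn_zero]
      exact h3.congr hd2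
    simpa using this
  have hc2 : ContDiffOn ℝ 2 f U := by
    have : ContDiffOn ℝ (1 + 1) f U := by
      rw [contDiffOn_succ_iff_deriv_of_isOpen hU]
      refine ⟨fun x hx => (h1 x hx).differentiableAt.differentiableWithinAt, by simp, ?_⟩
      exact hc1.congr hd1
    have e : (1 + 1 : WithTop ℕ∞) = 2 := by norm_num
    rwa [e] at this
  exact hc2.contDiffAt (hU.mem_nhds ht)

theorem continuousAt_GG (hs : 2 < s) {t : ℝ} (h0 : -LL s < t) (h1 : t < LL s) :
    ContinuousAt (GG s) t := (hasDerivAt_GG hs h0 h1).continuousAt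

theorem qq_contDiffAt (hs : 2 < s) (hk : k * (s ^ 2 - 1) = s ^ 2) {t : ℝ} (h0 : -LL s < t)
    (h1 : t < LL s) : ContDiffAt ℝ 2 (qq s k) t := by
  apply contDiffAt_two_of_deriv (U := Ioo (-LL s) (LL s)) (f₁ := fun t => Q1 s k (GG s t))
    (f₂ := fun t => Q2 s k (GG s t)) isOpen_Ioo ⟨h0, h1⟩
  · exact fun x hx => hasDerivAt_qq hs hk hx.1 hx.2
  · exact fun x hx => hasDerivAt_Q1_GG hs hk hx.1 hx.2
  · intro x hx
    have hc : ContinuousWithinAt (Q2 s k) (Ioo 0 Real.pi) (GG s x) :=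
      continuousOn_Q2 hs _ (GG_mem_Ioo hs hx.1 hx.2)
    have hc2 : ContinuousWithinAt (GG s) (Ioo (-LL s) (LL s)) x :=
      (continuousAt_GG hs hx.1 hx.2).continuousWithinAt
    exact hc.comp hc2 fun y hy => GG_mem_Ioo hs hy.1 hy.2

theorem qq_jet (hs : 2 < s) (hk : k * (s ^ 2 - 1) = s ^ 2) {t : ℝ} (h0 : -LL s < t)
    (h1 : t < LL s) :
    J2At (qq s k) t (qq s k t) (Q1 s k (GG s t)) (Q2 s k (GG s t)) := by
  refine ⟨rfl, fun t => Q1 s k (GG s t), ?_, rfl, hasDerivAt_Q1_GG hs hk h0 h1⟩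
  filter_upwards [Ioo_mem_nhds h0 h1] with x hx
  exact hasDerivAt_qq hs hk hx.1 hx.2

theorem qq_ode (hs : 2 < s) (hk : k * (s ^ 2 - 1) = s ^ 2) {t : ℝ} (h0 : -LL s < t)
    (h1 : t < LL s) : EJ k (qq s k t) (deriv (qq s k) t) (deriv (deriv (qq s k)) t) = 0 := by
  have h := J2At.of_contDiffAt (qq_contDiffAt hs hk h0 h1)
  obtain ⟨-, e1, e2⟩ := h.unique (qq_jet hs hk h0 h1)
  rw [e1, e2]
  have hm := GG_mem_Ioo hs h0 h1
  exact ode_identity hs hk hm.1 hm.2

theorem GG_top (hs : 2 < s) : GG s (LL s) = 0 := by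
  unfold GG
  rw [sub_self]
  have := Gam_phi hs (γ := 0) ⟨le_rfl, Real.pi_pos.le⟩
  rwa [phi_zero hs] at this

theorem GG_zero (hs : 2 < s) : GG s 0 = Real.pi / 2 := by
  unfold GG
  rw [sub_zero, ← phi_pi_div_two (s := s)]
  exact Gam_phi hs ⟨by positivity, by linarith [Real.pi_pos]⟩

theorem qq_top (hs : 2 < s) : qq s k (LL s) = 1 := by
  unfold qq
  rw [GG_top hs, qhat_zero hs]

theorem qq_zero (hs : 2 < s) : qq s k 0 = 0 := by
  unfold qq
  rw [GG_zero hs, qhat_pi_div_two]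

theorem qq_strictMonoOn (hs : 2 < s) (hk : k * (s ^ 2 - 1) = s ^ 2) :
    StrictMonoOn (qq s k) (Icc 0 (LL s)) := by
  have hL := LL_pos hs
  intro a ha b hb hab
  have hA : LL s - a ∈ Icc 0 (2 * LL s) := ⟨by linarith [ha.2], by linarith [ha.1]⟩
  have hB : LL s - b ∈ Icc 0 (2 * LL s) := ⟨by linarith [hb.2], by linarith [hb.1]⟩
  have h1 := Gam_strictMonoOn hs hB hA (by linarith)
  exact qhat_strictAntiOn hs hk (Gam_spec hs hB.1 hB.2).1 (Gam_spec hs hA.1 hA.2).1 h1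

theorem qq_deriv_zero (hs : 2 < s) (hk : k * (s ^ 2 - 1) = s ^ 2) :
    HasDerivAt (qq s k) (s ^ k * (s / (s ^ 2 - 1))) 0 := by
  have hL := LL_pos hs
  have h := hasDerivAt_qq hs hk (t := 0) (by linarith) hL
  rw [GG_zero hs] at h
  refine h.congr_deriv ?_
  unfold Q1 XX
  have e : N2 s (Real.pi / 2) = 1 := by simp [N2]
  rw [e]
  simp

/-- The flatness of the profile at its top. -/
theorem qq_flat (hs : 2 < s) (hk : k * (s ^ 2 - 1) = s ^ 2) {ε : ℝ} (hε : 0 < ε) :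
    ∃ τ₀ > 0, ∀ τ, 0 < τ → τ < τ₀ → 1 - qq s k (LL s - τ) ≤ ε * τ := by
  have hQ0 : Q1 s k 0 = 0 := by simp [Q1]
  have hev : ∀ᶠ γ in 𝓝 (0 : ℝ), Q1 s k γ < ε := by
    have hc := (continuous_Q1 (k := k) hs).continuousAt (x := 0)
    apply hc.eventually_lt continuousAt_const
    rw [hQ0]; exact hε
  obtain ⟨δ, hδ, hball⟩ := Metric.eventually_nhds_iff.mp hev
  set γ₀ := min (δ / 2) (Real.pi / 2) with hγ₀
  have hγ₀pos : 0 < γ₀ := lt_min (by linarith) (by positivity)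
  have hγ₀le : γ₀ ≤ δ / 2 := min_le_left _ _
  have hγ₀π : γ₀ < Real.pi := lt_of_le_of_lt (min_le_right _ _) (by linarith [Real.pi_pos])
  have hQsmall : ∀ γ, 0 ≤ γ → γ ≤ γ₀ → Q1 s k γ ≤ ε := by
    intro γ h0 h1
    apply le_of_lt
    apply hball
    rw [Real.dist_eq, sub_zero, abs_of_nonneg h0]
    linarith
  -- the comparison function
  set g : ℝ → ℝ := fun γ => ε * phi s γ + qhat s k γ with hg
  have hgcont : Continuous g := by
    have h1 := continuous_phi hs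
    have h2 : Continuous (qhat s k) :=
      continuous_iff_continuousAt.mpr fun γ => (hasDerivAt_qhat hs hk γ).continuousAt
    exact (h1.const_mul ε).add h2
  have hgmono : MonotoneOn g (Icc 0 γ₀) := by
    have hderiv : ∀ γ ∈ Ioo 0 γ₀, HasDerivAt g
        (ε * ((s ^ 2 - 1) * Real.sin γ ^ 2 / (s * N2 s γ))
          + -(s ^ k * Real.sin γ ^ 3 * XX s k γ / N2 s γ)) γ := by
      intro γ hγ
      exact ((hasDerivAt_phi hs hγ.1 (by linarith [hγ.2])).const_mul ε).add (hasDerivAt_qhat hs hk γ)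
    apply monotoneOn_of_deriv_nonneg (convex_Icc _ _) hgcont.continuousOn
    · rw [interior_Icc]
      exact fun γ hγ => (hderiv γ hγ).differentiableAt.differentiableWithinAt
    · rw [interior_Icc]
      intro γ hγ
      rw [(hderiv γ hγ).deriv, qhat_deriv_eq hs]
      have hp := phi_deriv_pos hs hγ.1 (by linarith [hγ.2])
      have hq := hQsmall γ hγ.1.le hγ.2.le
      nlinarith
  have hg0 : g 0 = 1 := by
    simp only [hg, phi_zero hs, qhat_zero hs, mul_zero, zero_add]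
  have hmem0 : γ₀ ∈ Icc 0 Real.pi := ⟨hγ₀pos.le, hγ₀π.le⟩
  have hphipos : 0 < phi s γ₀ := by
    have := (phi_strictMonoOn hs) ⟨le_rfl, Real.pi_pos.le⟩ hmem0 hγ₀pos
    rwa [phi_zero hs] at this
  have hphile : phi s γ₀ ≤ 2 * LL s := by
    have := (phi_strictMonoOn hs).monotoneOn hmem0 ⟨Real.pi_pos.le, le_rfl⟩ hγ₀π.le
    rwa [phi_pi hs] at this
  refine ⟨phi s γ₀, hphipos, fun τ hτ0 hτ1 => ?_⟩
  obtain ⟨hm, hsp⟩ := Gam_spec hs hτ0.le (by linarith : τ ≤ 2 * LL s)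
  have hlt : Gam s τ ≤ γ₀ := by
    by_contra hcon
    push Not at hcon
    have := (phi_strictMonoOn hs).monotoneOn hmem0 hm hcon.le
    rw [hsp] at this
    linarith
  have h2 := hgmono ⟨le_rfl, hγ₀pos.le⟩ ⟨hm.1, hlt⟩ hm.1
  rw [hg0] at h2
  simp only [hg, hsp] at h2
  have e : qq s k (LL s - τ) = qhat s k (Gam s τ) := by
    unfold qq GG
    congr 2
    ring
  rw [e]
  linarith

theorem qq_continuousOn (hs : 2 < s) (hk : k * (s ^ 2 - 1) = s ^ 2) :
    ContinuousOn (qq s k) (Icc 0 (LL s)) := by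
  have hL := LL_pos hs
  intro t ht
  rcases ht.2.eq_or_lt with h | h
  · -- the endpoint `L`
    subst h
    rw [Metric.continuousWithinAt_iff]
    intro ε hε
    obtain ⟨τ₀, hτ₀, hflat⟩ := qq_flat (k := k) hs hk (ε := ε / (LL s + 1)) (by positivity)
    refine ⟨τ₀, hτ₀, fun x hx hxd => ?_⟩
    rw [Real.dist_eq] at hxd ⊢
    rw [qq_top hs]
    rcases hx.2.eq_or_lt with hxL | hxL
    · rw [hxL, qq_top hs]; simpa using hε
    · have h1 : qq s k x < 1 := by
        have := qq_strictMonoOn hs hk hx ⟨hL.le, le_rfl⟩ hxL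
        rwa [qq_top hs] at this
      rw [abs_sub_comm, abs_of_pos (by linarith)]
      have hτ : LL s - x < τ₀ := by
        rw [abs_sub_comm, abs_of_pos (by linarith)] at hxd
        exact hxd
      have h2 := hflat (LL s - x) (by linarith) hτ
      have e : LL s - (LL s - x) = x := by ring
      rw [e] at h2
      have h3 : ε / (LL s + 1) * (LL s - x) < ε := by
        rw [div_mul_eq_mul_div, div_lt_iff₀ (by positivity)]
        have hx0 := hx.1
        nlinarith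
      linarith
  · exact (hasDerivAt_qq hs hk (by linarith [ht.1]) h).continuousAt.continuousWithinAt

end inverse

/-- What the comparison arguments use about the profile `q` on `[0, L]`. -/
structure IsProfile (k L : ℝ) (q : ℝ → ℝ) : Prop where
  L_gt : Real.pi / 4 < L
  L_lt : L < Real.pi / 2
  cont : ContinuousOn q (Icc 0 L)
  mono : StrictMonoOn q (Icc 0 L)
  zero : q 0 = 0
  top : q L = 1
  diff : ∀ t ∈ Ioo 0 L, ContDiffAt ℝ 2 q t
  ode : ∀ t ∈ Ioo 0 L, EJ k (q t) (deriv q t) (deriv (deriv q) t) = 0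
  slope : ∃ κ > 0, HasDerivAt q κ 0
  flat : ∀ ε > 0, ∃ τ₀ > 0, ∀ τ, 0 < τ → τ < τ₀ → 1 - q (L - τ) ≤ ε * τ

/-- The exact profile exists for `1 < k < 4 / 3`. -/
theorem exists_profile {k : ℝ} (hk1 : 1 < k) (hk2 : k < 4 / 3) :
    ∃ (L : ℝ) (q : ℝ → ℝ), IsProfile k L q := by
  set s := Real.sqrt (k / (k - 1)) with hsdef
  have hk0 : 0 < k - 1 := by linarith
  have hsq : s ^ 2 = k / (k - 1) := Real.sq_sqrt (by positivity)
  have hsq4 : 4 < s ^ 2 := by
    rw [hsq, lt_div_iff₀ hk0]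
    linarith
  have hs : 2 < s := by
    have : 0 ≤ s := Real.sqrt_nonneg _
    nlinarith
  have hk : k * (s ^ 2 - 1) = s ^ 2 := by
    rw [hsq]
    field_simp
    ring
  have hL := LL_pos hs
  refine ⟨LL s, qq s k, ⟨LL_gt hs, LL_lt hs, qq_continuousOn hs hk, qq_strictMonoOn hs hk,
    qq_zero hs, qq_top hs, ?_, ?_, ?_, ?_⟩⟩
  · exact fun t ht => qq_contDiffAt hs hk (by linarith [ht.1]) ht.2
  · exact fun t ht => qq_ode hs hk (by linarith [ht.1]) ht.2
  · refine ⟨s ^ k * (s / (s ^ 2 - 1)), ?_, qq_deriv_zero hs hk⟩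
    have hs0 : 0 < s := by linarith
    have hs2 : 0 < s ^ 2 - 1 := by linarith
    positivity
  · exact fun ε hε => qq_flat hs hk hε

end Vale.Agent.Lib.P080
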