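import Vale.Agent.Lib.P080.Comparison

/-!
# Lipschitz-type bounds and contact points
-/

namespace Vale.Agent.Lib.P080

open Filter Topology Set
open scoped RealInnerProductSpace

variable {E : Type*} [NormedAddCommGroup E] [InnerProductSpace ℝ E]
  [FiniteDimensional ℝ E] {k L : ℝ} {q : ℝ → ℝ} {f : E → ℝ}

/-- Continuity of the profile along a limit. -/
theorem IsProfile.tendsto_comp (hP : IsProfile k L q) {ι : Type*} {F : Filter ι} {g : ι → ℝ}
    {t : ℝ} (ht : t ∈ Icc 0 L) (hg : Tendsto g F (𝓝 t)) (hm : ∀ᶠ i in F, g i ∈ Icc 0 L) :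
    Tendsto (fun i => q (g i)) F (𝓝 (q t)) := by
  have h1 : Tendsto g F (𝓝[Icc 0 L] t) := tendsto_nhdsWithin_iff.mpr ⟨hg, hm⟩
  exact (hP.cont t ht).tendsto.comp h1

/-- The Lipschitz-type bound: the value at `x` is controlled by the value at `z`. -/
theorem le_profile (hP : IsProfile k L q) (hk : 1 < k) (hf : SphSol k f) {M : ℝ} (hM0 : 0 < M)
    (hM : ∀ x : E, ‖x‖ = 1 → f x ≤ M) {z : E} (hz : ‖z‖ = 1) {a : ℝ} (ha0 : 0 ≤ a)
    (hza : f z ≤ M * q a) {x : E} (hx : ‖x‖ = 1) (hax : a + ang x z ≤ L) :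
    f x ≤ M * q (a + ang x z) := by
  have hL := hP.L_pos
  have hLπ := hP.L_lt
  rcases hax.eq_or_lt with h | h
  · rw [h, hP.top, mul_one]; exact hM x hx
  set θ := ang x z with hθ
  have hθ0 : 0 ≤ θ := ang_nonneg _ _
  -- the perturbed argument
  set arg : ℝ → ℝ := fun δ => (1 + δ) * (a + δ + θ) with harg
  have hargc : Continuous arg := by
    simp only [harg]; fun_prop
  have harg0 : arg 0 = a + θ := by simp [harg]
  have hargt : Tendsto arg (𝓝[>] 0) (𝓝 (a + θ)) := by
    have := hargc.tendsto 0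
    rw [harg0] at this
    exact this.mono_left nhdsWithin_le_nhds
  have hev1 : ∀ᶠ δ in 𝓝[>] (0 : ℝ), arg δ < L := hargt.eventually_lt_const h
  have hev2 : ∀ᶠ δ in 𝓝[>] (0 : ℝ), 0 < δ := eventually_mem_nhdsWithin
  have hkey : ∀ᶠ δ in 𝓝[>] (0 : ℝ), f x ≤ M * q (arg δ) := by
    filter_upwards [hev1, hev2] with δ h1 h2
    have hβ : 1 < 1 + δ := by linarith
    have hβ0 : 0 < 1 + δ := by linarith
    have hcmp := compare_above hP hk hf hz (b₁ := 0) (b₂ := L / (1 + δ) - (a + δ)) (a := a + δ)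
      (β := 1 + δ) (C := M) le_rfl ?_ hβ (by linarith) ?_ hM0.le ?_ ?_ x hx hθ0 ?_
    · exact hcmp
    · have : L / (1 + δ) ≤ L := div_le_self hL.le hβ.le
      linarith [Real.pi_pos]
    · have e : (1 + δ) * (a + δ + (L / (1 + δ) - (a + δ))) = L := by field_simp; ring
      rw [e]
    · intro y hy hy0
      have hyz : y = z := eq_of_ang_eq_zero hy hz hy0
      rw [hyz]
      refine le_trans hza ?_
      apply mul_le_mul_of_nonneg_left _ hM0.le
      have e1 : (1 + δ) * (a + δ + θ) < L := h1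
      have e2 : (1 + δ) * (a + δ + 0) ≤ (1 + δ) * (a + δ + θ) := by
        apply mul_le_mul_of_nonneg_left _ hβ0.le
        linarith
      have e3 : (1 + δ) * (a + δ + 0) < L := by linarith
      have e4 : a ≤ (1 + δ) * (a + δ + 0) := by nlinarith
      exact hP.mono.monotoneOn ⟨ha0, by linarith⟩ ⟨by linarith, e3.le⟩ e4
    · intro y hy _
      have e : (1 + δ) * (a + δ + (L / (1 + δ) - (a + δ))) = L := by field_simp; ring
      rw [e, hP.top, mul_one]
      exact hM y hy
    · have e1 : (1 + δ) * (a + δ + θ) < L := h1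
      rw [le_sub_iff_add_le, le_div_iff₀ hβ0]
      nlinarith
  have hlim : Tendsto (fun δ => M * q (arg δ)) (𝓝[>] 0) (𝓝 (M * q (a + θ))) := by
    apply Tendsto.const_mul
    apply hP.tendsto_comp ⟨by linarith, h.le⟩ hargt
    filter_upwards [hev1, hev2] with δ h1 h2
    refine ⟨?_, h1.le⟩
    simp only [harg]
    positivity
  exact ge_of_tendsto hlim hkey

/-- The sharp lower bound near a top point. -/
theorem top_lower (hP : IsProfile k L q) (hk : 1 < k) (hf : SphSol k f) {M : ℝ} (hM0 : 0 < M)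
    (hM : ∀ x : E, ‖x‖ = 1 → f x ≤ M) {r : E} (hr : ‖r‖ = 1) (hfr : f r = M) {x : E}
    (hx : ‖x‖ = 1) (hxr : ang x r ≤ L) : M * q (L - ang x r) ≤ f x := by
  have hL := hP.L_pos
  have hLπ := hP.L_lt
  have hπ := Real.pi_pos
  -- first the open disk
  have hopen : ∀ y : E, ‖y‖ = 1 → ang y r < L → M * q (L - ang y r) ≤ f y := by
    intro y hy hyr
    by_contra hcon
    push Not at hcon
    set θ := ang y r with hθ
    have hθ0 : 0 ≤ θ := ang_nonneg _ _
    have hcy : f y / M < q (L - θ) := by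
      rwa [div_lt_iff₀ hM0, mul_comm]
    -- find `a < L - θ` with `f y ≤ M q a`
    have hnh : ContinuousWithinAt q (Icc 0 L) (L - θ) :=
      hP.cont _ ⟨by linarith, by linarith⟩
    have hev := hnh.tendsto.eventually_const_lt hcy
    rw [eventually_nhdsWithin_iff] at hev
    obtain ⟨δ, hδ, hball⟩ := Metric.eventually_nhds_iff.mp hev
    set a := max 0 (L - θ - δ / 2) with ha
    have ha0 : 0 ≤ a := le_max_left _ _
    have halt : a < L - θ := max_lt (by linarith) (by linarith)
    have hamem : a ∈ Icc 0 L := ⟨ha0, by linarith⟩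
    have hdist : dist a (L - θ) < δ := by
      rw [Real.dist_eq, abs_of_neg (by linarith)]
      have : L - θ - δ / 2 ≤ a := le_max_right _ _
      linarith
    have h1 := hball hdist hamem
    have h2 : f y ≤ M * q a := by
      rw [div_lt_iff₀ hM0] at h1
      linarith
    have h3 := le_profile hP hk hf hM0 hM hy ha0 h2 hr (x := r) (by
      rw [ang_comm]; linarith)
    rw [hfr, ang_comm] at h3
    have h4 : q (a + θ) < 1 := hP.q_lt_one (by linarith) (by linarith)
    nlinarith
  rcases hxr.eq_or_lt with h | h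
  · -- the boundary circle
    rw [h, sub_self, hP.zero, mul_zero]
    by_contra hcon
    push Not at hcon
    have hcont : ContinuousWithinAt f (Metric.sphere 0 1) x :=
      hf.cont x (by simpa using hx)
    have hev := hcont.tendsto.eventually_lt_const hcon
    rw [eventually_nhdsWithin_iff] at hev
    obtain ⟨τ, hτ, hball⟩ := exists_ang_ball hx hev
    have hang : ang x r < Real.pi := by linarith
    set t := min (τ / 2) L with ht
    have ht0 : 0 < t := lt_min (by linarith) hL
    have htL : t ≤ ang x r := by rw [h]; exact min_le_right _ _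
    obtain ⟨n, hn, hxn, hnr⟩ := exists_between hx hr hang ht0.le htL
    have h1 : f n < 0 := by
      apply hball n hn
      · rw [ang_comm, hxn]
        have : t ≤ τ / 2 := min_le_left _ _
        linarith
      · simpa using hn
    have h2 := hopen n hn (by rw [hnr]; linarith)
    have h3 : 0 ≤ q (L - ang n r) := hP.q_nonneg (by rw [hnr]; linarith [ang_nonneg x r])
      (by rw [hnr]; linarith)
    have := mul_nonneg hM0.le h3
    linarith
  · exact hopen x hx h

/-- A point where `f ≤ 0` is at distance at least `L` from every top point. -/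
theorem far_of_nonpos (hP : IsProfile k L q) (hk : 1 < k) (hf : SphSol k f) {M : ℝ} (hM0 : 0 < M)
    (hM : ∀ x : E, ‖x‖ = 1 → f x ≤ M) {r : E} (hr : ‖r‖ = 1) (hfr : f r = M) {y : E}
    (hy : ‖y‖ = 1) (hfy : f y ≤ 0) : L ≤ ang y r := by
  by_contra hcon
  push Not at hcon
  have h1 := top_lower hP hk hf hM0 hM hr hfr hy hcon.le
  have h2 := hP.q_pos (t := L - ang y r) (by linarith) (by linarith [ang_nonneg y r])
  have := mul_pos hM0 h2
  linarith

/-- There is no local minimum at a positive value. -/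
theorem no_pos_local_min (hdim : 2 ≤ Module.finrank ℝ E) (hk : 1 < k) (hf : SphSol k f) {z : E}
    (hz : ‖z‖ = 1) (hpos : 0 < f z) {r₀ : ℝ} (hr₀ : 0 < r₀)
    (hmin : ∀ x : E, ‖x‖ = 1 → ang x z < r₀ → f z ≤ f x) : False := by
  obtain ⟨e, he, hze⟩ := exists_orthogonal_unit hdim z
  have hang : ang z e = Real.pi / 2 := by
    apply ang_of_inner_eq_cos (by positivity) (by linarith [Real.pi_pos])
    rw [hze, Real.cos_pi_div_two]
  have hcd : ContDiffAt ℝ 2 (fun _ : ℝ => f z) (ang z e) := contDiffAt_const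
  have hE := hf.below e z (fun _ => f z) he hz (by rw [hang]; positivity)
    (by rw [hang]; linarith [Real.pi_pos]) hcd rfl (by
      have hev : ∀ᶠ y in 𝓝 z, ang y z < r₀ := by
        have := (continuous_ang_left z).continuousAt (x := z)
        apply this.eventually_lt_const
        show ang z z < r₀
        rw [ang_self hz]; exact hr₀
      filter_upwards [hev] with y hy hy1
      exact hmin y hy1 hy)
  have hv : EE k (fun _ => f z) (ang z e) = f z * (k ^ 3 * (k - 1) * f z ^ 2) := by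
    have h1 : deriv (fun _ : ℝ => f z) = fun _ => 0 := by
      funext t; simp
    unfold EE EJ
    rw [h1]
    simp
  rw [hv] at hE
  have hk0 : 0 < k := by linarith
  have hk1 : 0 < k - 1 := by linarith
  have : 0 < f z * (k ^ 3 * (k - 1) * f z ^ 2) := by positivity
  linarith

/-- If `f` is positive on a disk of radius larger than `L` then its center is a local minimum. -/
theorem local_min_of_pos_disk (hP : IsProfile k L q) (hk : 1 < k) (hf : SphSol k f) {M : ℝ}
    (hM0 : 0 < M) (hM : ∀ x : E, ‖x‖ = 1 → f x ≤ M) {z : E} (hz : ‖z‖ = 1) {ρ : ℝ} (hρ : L < ρ)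
    (hρπ : ρ ≤ Real.pi) (hpos : ∀ x : E, ‖x‖ = 1 → ang x z < ρ → 0 < f x) :
    ∃ r₀ > 0, ∀ x : E, ‖x‖ = 1 → ang x z < r₀ → f z ≤ f x := by
  have hL := hP.L_pos
  set R := (L + ρ) / 2 with hR
  have hRL : L < R := by rw [hR]; linarith
  have hRρ : R < ρ := by rw [hR]; linarith
  set β := L / R with hβ
  have hR0 : 0 < R := by linarith
  have hβ0 : 0 < β := by positivity
  have hβ1 : β < 1 := by rw [hβ, div_lt_one hR0]; exact hRL
  have hLβ : L / β = R := by rw [hβ]; field_simp
  set r₀ := (ρ - R) / 2 with hr₀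
  have hr₀pos : 0 < r₀ := by rw [hr₀]; linarith
  -- barrier at all centers near `z`
  have hbar : ∀ z' : E, ‖z'‖ = 1 → ang z' z ≤ r₀ → ∀ x : E, ‖x‖ = 1 → ang x z' ≤ R →
      f z' * q (L - β * ang x z') ≤ f x := by
    intro z' hz' hzz x hx hxz
    apply lower_barrier hP hk hf hz' hβ0 hβ1 (by rw [hLβ]; linarith) _ x hx (by rw [hLβ]; exact hxz)
    intro y hy hyz
    rw [hLβ] at hyz
    apply hpos y hy
    have := ang_triangle hy hz' hz
    linarith
  refine ⟨r₀, hr₀pos, ?_⟩
  intro x hx hxz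
  -- it suffices to beat every small linear term
  have hsuff : ∀ ε : ℝ, 0 < ε → f z ≤ f x + 2 * M * ε * ang x z := by
    intro ε hε
    obtain ⟨τ₀, hτ₀, hflat⟩ := hP.flat ε hε
    set A : Set E := {y : E | ‖y‖ = 1 ∧ 0 ≤ ang y z ∧ ang y z ≤ r₀} with hA
    have hAc : IsCompact A := isCompact_annulus z 0 r₀
    have hzA : z ∈ A := ⟨hz, by rw [ang_self hz], by rw [ang_self hz]; exact hr₀pos.le⟩
    have hcontf : ContinuousOn f A := hf.cont.mono fun y hy => by
      simpa using hy.1
    have hcontg : ContinuousOn (fun y => f y + 2 * M * ε * ang y z) A :=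
      hcontf.add (continuous_const.mul (continuous_ang_left z)).continuousOn
    obtain ⟨w, hw, hmin⟩ := hAc.exists_isMinOn ⟨z, hzA⟩ hcontg
    have hwz : ang w z = 0 := by
      by_contra hne
      have hwpos : 0 < ang w z := lt_of_le_of_ne (ang_nonneg _ _) (Ne.symm hne)
      have hwπ : ang w z < Real.pi := by
        have := hw.2.2
        have h5 : r₀ < Real.pi := by rw [hr₀]; linarith
        linarith
      set η := min (min (τ₀ / 2) R) (ang w z) with hη
      have hη0 : 0 < η := lt_min (lt_min (by linarith) hR0) hwpos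
      have hηw : η ≤ ang w z := min_le_right _ _
      have hητ : η ≤ τ₀ / 2 := le_trans (min_le_left _ _) (min_le_left _ _)
      have hηR : η ≤ R := le_trans (min_le_left _ _) (min_le_right _ _)
      obtain ⟨y, hy, hwy, hyz⟩ := exists_between hw.1 hz hwπ hη0.le hηw
      have hyA : y ∈ A := ⟨hy, ang_nonneg _ _, by
        rw [hyz]; linarith [hw.2.2]⟩
      have h1 := hmin hyA
      simp only [mem_ofPred_eq] at h1
      rw [hyz] at h1
      have hyw : ang w y = η := by rw [hwy]
      have h2 := hbar y hy hyA.2.2 w hw.1 (by rw [hwy]; exact hηR)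
      rw [hwy] at h2
      have hβη0 : 0 < β * η := by positivity
      have hβητ : β * η < τ₀ := by nlinarith
      have h3 := hflat (β * η) hβη0 hβητ
      have hfy0 : 0 < f y := by
        apply hpos y hy
        have := hyA.2.2
        rw [hr₀] at this
        linarith
      have hfyM := hM y hy
      -- combine
      have h4 : f y * (1 - q (L - β * η)) ≤ f y * (ε * (β * η)) :=
        mul_le_mul_of_nonneg_left h3 hfy0.le
      have h5 : f y * (ε * (β * η)) ≤ M * (ε * η) := by
        have : ε * (β * η) ≤ ε * η := by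
          apply mul_le_mul_of_nonneg_left _ hε.le
          nlinarith
        have h6 : 0 ≤ ε * η := by positivity
        nlinarith
      have h6 : 0 < M * (ε * η) := by positivity
      nlinarith
    -- conclude: the minimum of `g` is at `z`
    have hwz' : w = z := eq_of_ang_eq_zero hw.1 hz hwz
    have hxA : x ∈ A := ⟨hx, ang_nonneg _ _, hxz.le⟩
    have h1 := hmin hxA
    simp only [mem_ofPred_eq] at h1
    rw [hwz', ang_self hz, mul_zero, add_zero] at h1
    exact h1
  -- let `ε → 0`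
  by_contra hcon
  push Not at hcon
  have hθ0 := ang_nonneg x z
  set θ := ang x z
  have hgap : 0 < f z - f x := by linarith
  have h1 := hsuff ((f z - f x) / (4 * M * (θ + 1))) (by positivity)
  have h2 : 2 * M * ((f z - f x) / (4 * M * (θ + 1))) * θ ≤ (f z - f x) / 2 := by
    have e : 2 * M * ((f z - f x) / (4 * M * (θ + 1))) * θ
        = (f z - f x) / 2 * (θ / (θ + 1)) := by
      field_simp
      ring
    rw [e]
    have h3 : θ / (θ + 1) ≤ 1 := by
      rw [div_le_one (by positivity)]; linarith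
    nlinarith
  linarith

/-- Every point where `f` is positive lies within `L` of a point where `f ≤ 0`. -/
theorem exists_nonpos_within (hdim : 2 ≤ Module.finrank ℝ E) (hP : IsProfile k L q) (hk : 1 < k)
    (hf : SphSol k f) {M : ℝ} (hM0 : 0 < M) (hM : ∀ x : E, ‖x‖ = 1 → f x ≤ M) {z : E}
    (hz : ‖z‖ = 1) (hpos : 0 < f z) : ∃ x : E, ‖x‖ = 1 ∧ f x ≤ 0 ∧ ang x z ≤ L := by
  by_contra hcon
  push Not at hcon
  have hLπ := hP.L_lt
  have hπ := Real.pi_pos
  have hL := hP.L_pos
  -- the margin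
  have hmargin : ∃ ρ, L < ρ ∧ ρ ≤ Real.pi ∧ ∀ x : E, ‖x‖ = 1 → ang x z < ρ → 0 < f x := by
    set A : Set E := Metric.sphere (0 : E) 1 ∩ {x | f x ≤ 0} with hA
    have hAc : IsCompact A := by
      have hS : IsCompact (Metric.sphere (0 : E) 1) := isCompact_sphere 0 1
      have hcl : IsClosed A := by
        exact hf.cont.preimage_isClosed_of_isClosed hS.isClosed (isClosed_Iic (a := (0 : ℝ)))
      exact hS.of_isClosed_subset hcl inter_subset_left
    rcases A.eq_empty_or_nonempty with hemp | hne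
    · refine ⟨Real.pi, by linarith, le_rfl, fun x hx _ => ?_⟩
      by_contra hx0
      push Not at hx0
      have : x ∈ A := ⟨by simpa using hx, hx0⟩
      rw [hemp] at this
      exact this
    · obtain ⟨x₀, hx₀, hmin⟩ := hAc.exists_isMinOn hne (continuous_ang_left z).continuousOn
      have hx₀1 : ‖x₀‖ = 1 := by simpa using hx₀.1
      have hgt := hcon x₀ hx₀1 hx₀.2
      refine ⟨ang x₀ z, hgt, ang_le_pi _ _, fun x hx hxz => ?_⟩
      by_contra hx0
      push Not at hx0
      have hxA : x ∈ A := ⟨by simpa using hx, hx0⟩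
      have := hmin hxA
      simp only [mem_ofPred_eq] at this
      linarith
  obtain ⟨ρ, hρ, hρπ, hposρ⟩ := hmargin
  obtain ⟨r₀, hr₀, hmin⟩ := local_min_of_pos_disk hP hk hf hM0 hM hz hρ hρπ hposρ
  exact no_pos_local_min hdim hk hf hz hpos hr₀ hmin

/-- The contact point in a given direction. -/
theorem exists_contact (hdim : 2 ≤ Module.finrank ℝ E) (hP : IsProfile k L q) (hk : 1 < k)
    (hf : SphSol k f) {M : ℝ} (hM0 : 0 < M) (hM : ∀ x : E, ‖x‖ = 1 → f x ≤ M) {r : E}
    (hr : ‖r‖ = 1) (hfr : f r = M) {ξ : E} (hξ : ‖ξ‖ = 1) (hrξ : ⟪r, ξ⟫ = 0) :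
    ∃ y : E, ‖y‖ = 1 ∧ ang y r = L ∧ f y ≤ 0 ∧ 0 ≤ ⟪ξ, y⟫ := by
  have hL := hP.L_pos
  have hLπ := hP.L_lt
  have hπ := Real.pi_pos
  -- the approximating centers
  set τ : ℕ → ℝ := fun n => L / (n + 2) with hτ
  have hτpos : ∀ n, 0 < τ n := fun n => by
    simp only [hτ]; positivity
  have hτlt : ∀ n, τ n < L := fun n => by
    simp only [hτ]
    rw [div_lt_iff₀ (by positivity)]
    have : (0 : ℝ) ≤ n := Nat.cast_nonneg n
    nlinarith
  have hτlim : Tendsto τ atTop (𝓝 0) := by
    have h : Tendsto (fun n : ℕ => (n : ℝ) + 2) atTop atTop :=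
      tendsto_atTop_add_const_right _ _ tendsto_natCast_atTop_atTop
    exact h.const_div_atTop L
  have hchoice : ∀ n : ℕ, ∃ y : E, ‖y‖ = 1 ∧ f y ≤ 0 ∧ ang y (gc r ξ (τ n)) ≤ L := by
    intro n
    have hz1 : ‖gc r ξ (τ n)‖ = 1 := norm_gc hr hξ hrξ _
    have hd : ang (gc r ξ (τ n)) r = τ n := by
      have h := ang_gc_gc hr hξ hrξ (s := τ n) (t := 0) (by linarith [hτpos n])
        (by linarith [hτlt n])
      rw [gc_zero, sub_zero] at h
      exact h
    apply exists_nonpos_within hdim hP hk hf hM0 hM hz1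
    have h1 := top_lower hP hk hf hM0 hM hr hfr hz1 (by rw [hd]; exact (hτlt n).le)
    rw [hd] at h1
    have h2 := hP.q_pos (t := L - τ n) (by linarith [hτlt n]) (by linarith [hτpos n])
    have := mul_pos hM0 h2
    linarith
  choose y hy1 hy2 hy3 using hchoice
  have hycomp : ∀ n, y n ∈ Metric.sphere (0 : E) 1 := fun n => by simpa using hy1 n
  obtain ⟨y₀, hy₀, φ, hφ, hlim⟩ := (isCompact_sphere (0 : E) 1).tendsto_subseq hycomp
  have hy₀1 : ‖y₀‖ = 1 := by simpa using hy₀
  have hτφ : Tendsto (τ ∘ φ) atTop (𝓝 0) := hτlim.comp hφ.tendsto_atTop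
  have hgcφ : Tendsto (fun n => gc r ξ (τ (φ n))) atTop (𝓝 r) := by
    have h := (continuous_gc r ξ).tendsto 0
    rw [gc_zero] at h
    exact h.comp hτφ
  -- limits of the three properties
  have hf0 : f y₀ ≤ 0 := by
    have hc := (hf.cont y₀ hy₀).tendsto.comp
      (tendsto_nhdsWithin_iff.mpr ⟨hlim, Eventually.of_forall fun n => hycomp (φ n)⟩)
    exact le_of_tendsto hc (Eventually.of_forall fun n => hy2 (φ n))
  have hang : ang y₀ r ≤ L := by
    have hc : Tendsto (fun n => ang (y (φ n)) (gc r ξ (τ (φ n)))) atTop (𝓝 (ang y₀ r)) :=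
      Real.continuous_arccos.continuousAt.tendsto.comp (Tendsto.inner hlim hgcφ)
    exact le_of_tendsto hc (Eventually.of_forall fun n => hy3 (φ n))
  have hfar : L ≤ ang y₀ r := far_of_nonpos hP hk hf hM0 hM hr hfr hy₀1 hf0
  have hin : ∀ n, -τ n ≤ ⟪ξ, y n⟫ := by
    intro n
    set t := τ n with ht
    have ht0 : 0 < t := hτpos n
    have htL : t < L := hτlt n
    have hz1 : ‖gc r ξ t‖ = 1 := norm_gc hr hξ hrξ _
    have h1 : L ≤ ang (y n) r := far_of_nonpos hP hk hf hM0 hM hr hfr (hy1 n) (hy2 n)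
    have h2 := hy3 n
    have hc1 := cos_ang (hy1 n) hz1
    have hc2 := cos_ang (hy1 n) hr
    have hcos : Real.cos (ang (y n) r) ≤ Real.cos (ang (y n) (gc r ξ t)) :=
      Real.cos_le_cos_of_nonneg_of_le_pi (ang_nonneg _ _) (ang_le_pi _ _) (by linarith)
    rw [hc1, hc2] at hcos
    have hexp : ⟪y n, gc r ξ t⟫ = Real.cos t * ⟪y n, r⟫ + Real.sin t * ⟪y n, ξ⟫ := by
      unfold gc
      rw [inner_add_right, real_inner_smul_right, real_inner_smul_right]
    rw [hexp] at hcos
    have hle1 : ⟪y n, r⟫ ≤ 1 := by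
      have := real_inner_le_norm (y n) r
      rw [hy1 n, hr] at this
      linarith
    have hge1 : -1 ≤ ⟪y n, r⟫ := by
      have := neg_le_of_abs_le (abs_real_inner_le_norm (y n) r)
      rw [hy1 n, hr] at this
      linarith
    have hcosbd : 1 - t ^ 2 / 2 ≤ Real.cos t := Real.one_sub_sq_div_two_le_cos
    have hcosle : Real.cos t ≤ 1 := Real.cos_le_one t
    have hsinlow : 2 / Real.pi * t ≤ Real.sin t :=
      Real.mul_le_sin ht0.le (by linarith)
    have hsin0 : 0 < Real.sin t := by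
      have : 0 < 2 / Real.pi * t := by positivity
      linarith
    -- `sin t ⟪y, ξ⟫ ≥ (1 - cos t) ⟪y, r⟫ ≥ -(t² / 2)`
    have h3 : -(t ^ 2 / 2) ≤ Real.sin t * ⟪y n, ξ⟫ := by
      have h4 : (1 - Real.cos t) * ⟪y n, r⟫ ≤ Real.sin t * ⟪y n, ξ⟫ := by linarith
      have h5 : 0 ≤ 1 - Real.cos t := by linarith
      have h6 : (1 - Real.cos t) * (-1) ≤ (1 - Real.cos t) * ⟪y n, r⟫ :=
        mul_le_mul_of_nonneg_left hge1 h5
      nlinarith
    rw [real_inner_comm]
    by_contra hneg
    push Not at hneg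
    have hneg0 : ⟪y n, ξ⟫ < 0 := by linarith
    have h7 : 2 / Real.pi * t * ⟪y n, ξ⟫ ≥ Real.sin t * ⟪y n, ξ⟫ :=
      mul_le_mul_of_nonpos_right hsinlow hneg0.le
    have h8 : 2 / Real.pi * t * ⟪y n, ξ⟫ < 2 / Real.pi * t * (-t) :=
      mul_lt_mul_of_pos_left hneg (by positivity)
    have h9 : 2 / Real.pi * t * (-t) ≤ -(t ^ 2 / 2) := by
      have : 1 / 2 ≤ 2 / Real.pi := by
        rw [div_le_div_iff₀ (by norm_num) hπ]
        linarith [Real.pi_le_four]
      nlinarith [sq_nonneg t]
    linarith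
  have hξ0 : 0 ≤ ⟪ξ, y₀⟫ := by
    have hc1 : Tendsto (fun n => ⟪ξ, y (φ n)⟫) atTop (𝓝 ⟪ξ, y₀⟫) :=
      tendsto_const_nhds.inner hlim
    have hc2 : Tendsto (fun n => -τ (φ n)) atTop (𝓝 (-0)) := hτφ.neg
    rw [neg_zero] at hc2
    exact le_of_tendsto_of_tendsto' hc2 hc1 fun n => hin (φ n)
  exact ⟨y₀, hy₀1, le_antisymm hang hfar, hf0, hξ0⟩

end Vale.Agent.Lib.P080
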